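import Mathlib

open MeasureTheory Set Filter Topology
open scoped ENNReal

namespace Vale.Agent.P171

noncomputable section

/-- Three-dimensional Euclidean space. -/
abbrev E := EuclideanSpace ℝ (Fin 3)

/-- The multiset of values of a finite family of points. -/
def conf {ι α : Type*} [Fintype ι] (x : ι → α) : Multiset α := Finset.univ.val.map x

instance msMeasurable : MeasurableSpace (Multiset E) :=
  ⨅ n : ℕ, MeasurableSpace.map (fun x : Fin n → E => conf x) inferInstance

theorem measurableSet_iff {s : Set (Multiset E)} :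
    MeasurableSet s ↔ ∀ n : ℕ, MeasurableSet ((fun x : Fin n → E => conf x) ⁻¹' s) := by
  exact MeasurableSpace.measurableSet_iInf

theorem conf_reindex {ι κ α : Type*} [Fintype ι] [Fintype κ] (e : κ ≃ ι) (x : ι → α) :
    conf (x ∘ e) = conf x := by
  unfold conf
  rw [← Multiset.map_map]
  congr 1
  have := Finset.map_univ_equiv e
  have h2 := congrArg Finset.val this
  simp

theorem measurable_conf {ι : Type*} [Fintype ι] : Measurable (fun x : ι → E => conf x) := by
  intro s hs
  have h := (measurableSet_iff.1 hs) (Fintype.card ι)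
  let e := (Fintype.equivFin ι).symm
  have hm : Measurable (fun x : ι → E => x ∘ e) := by
    rw [measurable_pi_iff]
    intro a
    exact measurable_pi_apply (e a)
  have := hm h
  convert this using 1
  ext x
  simp only [mem_preimage]
  rw [conf_reindex]

theorem measurable_of_conf {β : Type*} [MeasurableSpace β] {f : Multiset E → β}
    (h : ∀ n : ℕ, Measurable (fun x : Fin n → E => f (conf x))) : Measurable f := by
  intro s hs
  rw [measurableSet_iff]
  intro n
  exact h n hs

theorem conf_filter {ι α : Type*} [Fintype ι] (x : ι → α) (p : α → Prop) [DecidablePred p]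
    (S : Finset ι) (hS : ∀ i, p (x i) ↔ i ∈ S) :
    (conf x).filter p = conf (fun i : {i // i ∈ S} => x i) := by
  classical
  unfold conf
  rw [Multiset.filter_map]
  have h1 : Multiset.filter (p ∘ x) Finset.univ.val = S.val := by
    have : Finset.univ.filter (fun i => p (x i)) = S := by
      ext i
      simp [hS]
    rw [← this]
    rfl
  rw [h1]
  have h2 : (Finset.univ : Finset {i // i ∈ S}).val = S.attach.val := rfl
  rw [h2]
  have h3 : (fun i : {i // i ∈ S} => x i) = x ∘ Subtype.val := rfl
  rw [h3, ← Multiset.map_map, Finset.attach_val, Multiset.attach_map_val]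

theorem conf_filter_not {ι α : Type*} [Fintype ι] [DecidableEq ι] (x : ι → α) (p : α → Prop) [DecidablePred p]
    (S : Finset ι) (hS : ∀ i, p (x i) ↔ ¬ i ∈ S) :
    (conf x).filter p = conf (fun i : {i // ¬ i ∈ S} => x i) := by
  classical
  rw [conf_filter x p Sᶜ (by simpa using hS)]
  have := conf_reindex (α := α) (Equiv.subtypeEquivRight (fun i => by simp) :
    {i // i ∈ Sᶜ} ≃ {i // ¬ i ∈ S}) (fun i : {i // ¬ i ∈ S} => x i)
  rw [← this]
  rfl

theorem conf_filter_pred {ι α : Type*} [Fintype ι] (x : ι → α) (q : α → Prop) [DecidablePred q]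
    (p : ι → Prop) [DecidablePred p] (hp : ∀ i, q (x i) ↔ p i) :
    (conf x).filter q = conf (fun i : {i // p i} => x i) := by
  classical
  rw [conf_filter x q (Finset.univ.filter p) (by simpa using hp)]
  have := conf_reindex (α := α) (Equiv.subtypeEquivRight (fun i => by simp) :
    {i // i ∈ Finset.univ.filter p} ≃ {i // p i}) (fun i : {i // p i} => x i)
  rw [← this]
  rfl

open Classical in
theorem measurable_filter {A : Set E} (hA : MeasurableSet A) :
    Measurable (fun m : Multiset E => m.filter (· ∈ A)) := by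
  apply measurable_of_conf
  intro n s hs
  have : (fun x : Fin n → E => (conf x).filter (· ∈ A)) ⁻¹' s =
      ⋃ S : Finset (Fin n), ({x : Fin n → E | ∀ i, x i ∈ A ↔ i ∈ S} ∩
        {x : Fin n → E | conf (fun i : {i // i ∈ S} => x i) ∈ s}) := by
    ext x
    simp only [mem_preimage, mem_iUnion, mem_inter_iff]
    constructor
    · intro h
      refine ⟨Finset.univ.filter (fun i => x i ∈ A), ?_, ?_⟩
      · intro i
        simp
      · show conf _ ∈ s
        rw [← conf_filter x (· ∈ A)]
        · exact h
        · intro i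
          simp
    · rintro ⟨S, h1, h2⟩
      rw [conf_filter x (· ∈ A) S h1]
      exact h2
  rw [this]
  refine MeasurableSet.iUnion fun S => ?_
  refine MeasurableSet.inter ?_ ?_
  · have : {x : Fin n → E | ∀ i, x i ∈ A ↔ i ∈ S} =
        ⋂ i : Fin n, (if i ∈ S then {x : Fin n → E | x i ∈ A} else {x : Fin n → E | x i ∈ A}ᶜ) := by
      ext x
      simp only [mem_iInter]
      refine forall_congr' fun i => ?_
      by_cases hi : i ∈ S <;> simp [hi]
    rw [this]
    refine MeasurableSet.iInter fun i => ?_
    have hm : MeasurableSet {x : Fin n → E | x i ∈ A} := measurable_pi_apply i hA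
    split_ifs
    · exact hm
    · exact hm.compl
  · have hm : Measurable (fun x : Fin n → E => fun i : {i // i ∈ S} => x i) := by
      rw [measurable_pi_iff]
      intro a
      exact measurable_pi_apply (a : Fin n)
    exact (measurable_conf.comp hm) hs

/-- The unnormalised Poisson measure of unit intensity on finite configurations. -/
def Pm : Measure (Multiset E) :=
  Measure.sum fun n : ℕ => ((n.factorial : ℝ≥0∞))⁻¹ •
    (volume : Measure (Fin n → E)).map (fun x => conf x)

/-- Configurations inside `A`. -/
def In (A : Set E) : Set (Multiset E) := {m | ∀ x ∈ m, x ∈ A}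

theorem conf_mem_In {ι : Type*} [Fintype ι] (x : ι → E) (A : Set E) :
    conf x ∈ In A ↔ ∀ i, x i ∈ A := by
  unfold In conf
  simp

theorem measurableSet_In {A : Set E} (hA : MeasurableSet A) : MeasurableSet (In A) := by
  rw [measurableSet_iff]
  intro n
  have : (fun x : Fin n → E => conf x) ⁻¹' In A = Set.pi univ fun _ => A := by
    ext x
    simp only [mem_preimage, conf_mem_In, Set.mem_pi, mem_univ, true_imp_iff]
  rw [this]
  exact MeasurableSet.univ_pi fun _ => hA

/-- n-fold integral over `A`. -/
def I (A : Set E) (f : Multiset E → ℝ≥0∞) (n : ℕ) : ℝ≥0∞ :=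
  ∫⁻ x in {x : Fin n → E | ∀ i, x i ∈ A}, f (conf x)

theorem lintegral_In {A : Set E} (hA : MeasurableSet A) {f : Multiset E → ℝ≥0∞}
    (hf : Measurable f) :
    ∫⁻ m in In A, f m ∂Pm = ∑' n : ℕ, ((n.factorial : ℝ≥0∞))⁻¹ * I A f n := by
  unfold Pm
  rw [Measure.restrict_sum _ (measurableSet_In hA), lintegral_sum_measure]
  congr 1
  ext n
  rw [Measure.restrict_smul, lintegral_smul_measure, smul_eq_mul,
    Measure.restrict_map measurable_conf (measurableSet_In hA),
    lintegral_map hf measurable_conf]
  unfold I
  congr 3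
  ext x
  simp only [mem_preimage, conf_mem_In]
  rfl

theorem In_mono {A B : Set E} (h : A ⊆ B) : In A ⊆ In B := fun _ hm x hx => h (hm x hx)

theorem I_reindex {ι : Type*} [Fintype ι] (A : Set E) (f : Multiset E → ℝ≥0∞) :
    ∫⁻ x in {x : ι → E | ∀ i, x i ∈ A}, f (conf x) = I A f (Fintype.card ι) := by
  unfold I
  let e := (Fintype.equivFin ι)
  have h := volume_measurePreserving_piCongrLeft (fun _ : Fin (Fintype.card ι) => E) e
  have h2 := h.setLIntegral_comp_preimage_emb
    (MeasurableEquiv.measurableEmbedding _) (fun x => f (conf x))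
    {x : Fin (Fintype.card ι) → E | ∀ i, x i ∈ A}
  rw [← h2]
  have h3 : ∀ x : ι → E, (MeasurableEquiv.piCongrLeft (fun _ : Fin (Fintype.card ι) => E) e) x
      = x ∘ e.symm := by
    intro x
    ext i
    simp [MeasurableEquiv.coe_piCongrLeft, Equiv.piCongrLeft_apply]
  congr 1
  · congr 1
    ext x
    simp only [mem_preimage, h3]
    constructor
    · intro h i
      exact h _
    · intro h i
      have := h (e i)
      simpa using this
  · ext x
    rw [h3, conf_reindex]

open Classical in
theorem I_split_p {A B : Set E} (hA : MeasurableSet A) (hB : MeasurableSet B)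
    (hd : Disjoint A B) {f g : Multiset E → ℝ≥0∞} (hf : Measurable f) (hg : Measurable g)
    (n : ℕ) (p : Fin n → Prop) [DecidablePred p] :
    ∫⁻ x in {x : Fin n → E | ∀ i, x i ∈ if p i then A else B},
      f ((conf x).filter (· ∈ A)) * g ((conf x).filter (· ∈ B)) =
    I A f (Fintype.card {i // p i}) * I B g (Fintype.card {i // ¬ p i}) := by
  have hpT : MeasurableSet {x : Fin n → E | ∀ i, x i ∈ if p i then A else B} := by
    have : {x : Fin n → E | ∀ i, x i ∈ if p i then A else B} =
        Set.pi univ (fun i => if p i then A else B) := by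
      ext x
      simp [Set.mem_pi]
    rw [this]
    refine MeasurableSet.univ_pi fun i => ?_
    split_ifs
    · exact hA
    · exact hB
  have h1 : ∫⁻ x in {x : Fin n → E | ∀ i, x i ∈ if p i then A else B},
      f ((conf x).filter (· ∈ A)) * g ((conf x).filter (· ∈ B)) =
      ∫⁻ x in {x : Fin n → E | ∀ i, x i ∈ if p i then A else B},
      f (conf (fun i : {i // p i} => x i)) * g (conf (fun i : {i // ¬ p i} => x i)) := by
    refine setLIntegral_congr_fun hpT fun x hx => ?_
    have hx' : ∀ i, x i ∈ if p i then A else B := hx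
    have hAS : ∀ i, x i ∈ A ↔ p i := by
      intro i
      have h := hx' i
      by_cases hi : p i
      · simp only [hi, if_true] at h
        simp [hi, h]
      · simp only [hi, if_false] at h
        simp only [hi, iff_false]
        exact fun h' => (Set.disjoint_left.1 hd) h' h
    have hBS : ∀ i, x i ∈ B ↔ ¬ p i := by
      intro i
      have h := hx' i
      by_cases hi : p i
      · simp only [hi, if_true] at h
        simp only [hi, not_true, iff_false]
        exact fun h' => (Set.disjoint_left.1 hd) h h'
      · simp only [hi, if_false] at h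
        simp [hi, h]
    show f ((conf x).filter (· ∈ A)) * g ((conf x).filter (· ∈ B)) = _
    rw [conf_filter_pred x (· ∈ A) p hAS, conf_filter_pred x (· ∈ B) (fun i => ¬ p i) hBS]
  rw [h1]
  have hmp := volume_preserving_piEquivPiSubtypeProd (fun _ : Fin n => E) p
  have h2 := hmp.setLIntegral_comp_preimage_emb (MeasurableEquiv.measurableEmbedding _)
    (fun q => f (conf q.1) * g (conf q.2))
    ({y : {i // p i} → E | ∀ i, y i ∈ A} ×ˢ {z : {i // ¬ p i} → E | ∀ i, z i ∈ B})
  have h3 : (MeasurableEquiv.piEquivPiSubtypeProd (fun _ : Fin n => E) p) ⁻¹'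
      ({y : {i // p i} → E | ∀ i, y i ∈ A} ×ˢ {z : {i // ¬ p i} → E | ∀ i, z i ∈ B}) =
      {x : Fin n → E | ∀ i, x i ∈ if p i then A else B} := by
    ext x
    simp only [mem_preimage, mem_prod]
    constructor
    · rintro ⟨h1, h2⟩ i
      by_cases hi : p i
      · simp only [hi, if_true]
        exact h1 ⟨i, hi⟩
      · simp only [hi, if_false]
        exact h2 ⟨i, hi⟩
    · intro h
      constructor
      · intro i
        have := h i.1
        simp only [i.2, if_true] at this
        exact this
      · intro i
        have := h i.1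
        simp only [i.2, if_false] at this
        exact this
  rw [h3] at h2
  have h4 : ∫⁻ x in {x : Fin n → E | ∀ i, x i ∈ if p i then A else B},
      f (conf (fun i : {i // p i} => x i)) * g (conf (fun i : {i // ¬ p i} => x i)) =
      ∫⁻ (b : ({i // p i} → E) × ({i // ¬ p i} → E)) in
      ({y : {i // p i} → E | ∀ i, y i ∈ A} ×ˢ {z : {i // ¬ p i} → E | ∀ i, z i ∈ B}),
      f (conf b.1) * g (conf b.2) := h2
  rw [h4]
  rw [Measure.volume_eq_prod, ← Measure.prod_restrict]
  rw [lintegral_prod_mul (f := fun y => f (conf y)) (g := fun z => g (conf z))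
    (hf.comp measurable_conf).aemeasurable (hg.comp measurable_conf).aemeasurable]
  rw [I_reindex, I_reindex]

open Classical in
theorem I_split_S {A B : Set E} (hA : MeasurableSet A) (hB : MeasurableSet B)
    (hd : Disjoint A B) {f g : Multiset E → ℝ≥0∞} (hf : Measurable f) (hg : Measurable g)
    (n : ℕ) (S : Finset (Fin n)) :
    ∫⁻ x in {x : Fin n → E | ∀ i, x i ∈ if i ∈ S then A else B},
      f ((conf x).filter (· ∈ A)) * g ((conf x).filter (· ∈ B)) =
    I A f S.card * I B g (n - S.card) := by
  rw [I_split_p hA hB hd hf hg n (fun i => i ∈ S), Fintype.card_subtype_compl]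
  simp

open Classical in
theorem I_split {A B : Set E} (hA : MeasurableSet A) (hB : MeasurableSet B)
    (hd : Disjoint A B) {f g : Multiset E → ℝ≥0∞} (hf : Measurable f) (hg : Measurable g)
    (n : ℕ) :
    I (A ∪ B) (fun m => f (m.filter (· ∈ A)) * g (m.filter (· ∈ B))) n =
    ∑ k ∈ Finset.range (n + 1), n.choose k • (I A f k * I B g (n - k)) := by
  have hU : {x : Fin n → E | ∀ i, x i ∈ A ∪ B} =
      ⋃ S : Finset (Fin n), {x : Fin n → E | ∀ i, x i ∈ if i ∈ S then A else B} := by
    ext x
    simp only [mem_iUnion]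
    constructor
    · intro h
      refine ⟨Finset.univ.filter (fun i => x i ∈ A), fun i => ?_⟩
      by_cases hi : x i ∈ A
      · simp [hi]
      · have := h i
        simp only [Finset.mem_filter, Finset.mem_univ, true_and, hi, if_false]
        rcases this with h1 | h1
        · exact absurd h1 hi
        · exact h1
    · rintro ⟨S, hS⟩ i
      have := hS i
      by_cases hi : i ∈ S
      · simp only [hi, if_true] at this
        exact Or.inl this
      · simp only [hi, if_false] at this
        exact Or.inr this
  unfold I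
  rw [hU, lintegral_iUnion, tsum_fintype]
  · have : ∀ S : Finset (Fin n), ∫⁻ x in {x : Fin n → E | ∀ i, x i ∈ if i ∈ S then A else B},
      f ((conf x).filter (· ∈ A)) * g ((conf x).filter (· ∈ B)) =
        (fun k => I A f k * I B g (n - k)) S.card := fun S => I_split_S hA hB hd hf hg n S
    simp_rw [this]
    have h5 := Finset.sum_powerset_apply_card (fun k => I A f k * I B g (n - k))
      (x := (Finset.univ : Finset (Fin n)))
    rw [Finset.powerset_univ] at h5
    simp only [Finset.card_univ, Fintype.card_fin] at h5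
    exact h5
  · intro S
    have : {x : Fin n → E | ∀ i, x i ∈ if i ∈ S then A else B} =
        Set.pi univ (fun i => if i ∈ S then A else B) := by
      ext x
      simp [Set.mem_pi]
    rw [this]
    refine MeasurableSet.univ_pi fun i => ?_
    split_ifs
    · exact hA
    · exact hB
  · intro S T hST
    rw [Function.onFun, Set.disjoint_left]
    intro x hx hy
    apply hST
    ext i
    have h1 := hx i
    have h2 := hy i
    by_cases hi : i ∈ S <;> by_cases hj : i ∈ T <;> simp only [hi, hj, if_true, if_false] at h1 h2 ⊢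
    · exact absurd h2 ((Set.disjoint_left.1 hd) h1)
    · exact absurd h1 ((Set.disjoint_left.1 hd) h2)

theorem tsum_cauchy (a b : ℕ → ℝ≥0∞) :
    ∑' n : ℕ, ((n.factorial : ℝ≥0∞))⁻¹ *
      ∑ k ∈ Finset.range (n + 1), n.choose k • (a k * b (n - k)) =
    (∑' n : ℕ, ((n.factorial : ℝ≥0∞))⁻¹ * a n) * (∑' n : ℕ, ((n.factorial : ℝ≥0∞))⁻¹ * b n) := by
  rw [← ENNReal.tsum_mul_right]
  simp_rw [← ENNReal.tsum_mul_left]
  rw [← ENNReal.tsum_prod (f := fun x y : ℕ => ((x.factorial : ℝ≥0∞))⁻¹ * a x *
    (((y.factorial : ℝ≥0∞))⁻¹ * b y))]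
  rw [← (Finset.HasAntidiagonal.sigmaAntidiagonalEquivProd (A := ℕ)).tsum_eq, ENNReal.tsum_sigma']
  congr 1
  ext n
  rw [tsum_fintype]
  rw [Finset.mul_sum, ← Finset.Nat.sum_antidiagonal_eq_sum_range_succ
    (fun k l => ((n.factorial : ℝ≥0∞))⁻¹ * n.choose k • (a k * b l))]
  rw [← Finset.sum_coe_sort]
  refine Finset.sum_congr rfl fun p _ => ?_
  obtain ⟨⟨k, l⟩, hp⟩ := p
  simp only [Finset.HasAntidiagonal.sigmaAntidiagonalEquivProd_apply]
  have hkl : k + l = n := by simpa using hp
  subst hkl
  have hc : ((k + l).choose k : ℝ≥0∞) * (k.factorial : ℝ≥0∞) * (l.factorial : ℝ≥0∞) =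
      ((k + l).factorial : ℝ≥0∞) := by
    have := Nat.add_choose_mul_factorial_mul_factorial k l
    rw [← Nat.choose_symm_add] at this
    exact_mod_cast this
  have hk0 : (k.factorial : ℝ≥0∞) ≠ 0 := by
    exact_mod_cast (Nat.factorial_ne_zero k)
  have hl0 : (l.factorial : ℝ≥0∞) ≠ 0 := by
    exact_mod_cast (Nat.factorial_ne_zero l)
  have hkt : (k.factorial : ℝ≥0∞) ≠ ⊤ := ENNReal.natCast_ne_top _
  have hlt : (l.factorial : ℝ≥0∞) ≠ ⊤ := ENNReal.natCast_ne_top _
  have hC0 : ((k + l).choose k : ℝ≥0∞) ≠ 0 := by
    have := Nat.choose_pos (n := k + l) (k := k) (by omega)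
    exact_mod_cast this.ne'
  have hCt : ((k + l).choose k : ℝ≥0∞) ≠ ⊤ := ENNReal.natCast_ne_top _
  have hinv : (((k + l).factorial : ℝ≥0∞))⁻¹ * ((k + l).choose k : ℝ≥0∞) =
      ((k.factorial : ℝ≥0∞))⁻¹ * ((l.factorial : ℝ≥0∞))⁻¹ := by
    rw [← hc, ENNReal.mul_inv (Or.inr hlt) (Or.inr hl0), ENNReal.mul_inv (Or.inr hkt) (Or.inr hk0)]
    rw [mul_comm _ ((k + l).choose k : ℝ≥0∞), ← mul_assoc, ← mul_assoc,
      ENNReal.mul_inv_cancel hC0 hCt, one_mul]
  rw [nsmul_eq_mul, ← mul_assoc, hinv]
  ring

open Classical in
/-- Factorisation over two disjoint regions. -/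
theorem factor_two {A B : Set E} (hA : MeasurableSet A) (hB : MeasurableSet B)
    (hd : Disjoint A B) {f g : Multiset E → ℝ≥0∞} (hf : Measurable f) (hg : Measurable g) :
    ∫⁻ m in In (A ∪ B), f (m.filter (· ∈ A)) * g (m.filter (· ∈ B)) ∂Pm =
    (∫⁻ m in In A, f m ∂Pm) * (∫⁻ m in In B, g m ∂Pm) := by
  rw [lintegral_In hA hf, lintegral_In hB hg, lintegral_In (hA.union hB)]
  · simp_rw [I_split hA hB hd hf hg]
    exact tsum_cauchy _ _
  · exact (hf.comp (measurable_filter hA)).mul (hg.comp (measurable_filter hB))

theorem In_empty : In (∅ : Set E) = {0} := by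
  ext m
  simp only [mem_singleton_iff]
  constructor
  · intro h
    by_contra hm
    obtain ⟨x, hx⟩ := Multiset.exists_mem_of_ne_zero hm
    exact h x hx
  · rintro rfl x hx
    simp at hx

theorem I_zero (A : Set E) (f : Multiset E → ℝ≥0∞) : I A f 0 = f 0 := by
  unfold I
  have h1 : {x : Fin 0 → E | ∀ i, x i ∈ A} = univ := by
    ext x
    simp
  rw [h1, Measure.restrict_univ, volume_pi, Measure.pi_of_empty, lintegral_dirac]
  rfl

theorem measurableSet_zero : MeasurableSet ({0} : Set (Multiset E)) := by
  rw [← In_empty]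
  exact measurableSet_In MeasurableSet.empty

theorem lintegral_In_empty {f : Multiset E → ℝ≥0∞} (hf : Measurable f) :
    ∫⁻ m in In (∅ : Set E), f m ∂Pm = f 0 := by
  rw [lintegral_In MeasurableSet.empty hf, tsum_eq_single 0]
  · rw [I_zero]
    simp
  · intro n hn
    unfold I
    have h1 : {x : Fin n → E | ∀ i, x i ∈ (∅ : Set E)} = ∅ := by
      ext x
      simp only [mem_empty_iff_false, iff_false]
      intro h
      exact h ⟨0, Nat.pos_of_ne_zero hn⟩
    rw [h1]
    simp

theorem le_lintegral_In {A : Set E} {f : Multiset E → ℝ≥0∞} (hf : Measurable f) :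
    f 0 ≤ ∫⁻ m in In A, f m ∂Pm := by
  rw [← lintegral_In_empty hf]
  exact lintegral_mono_set (In_mono (empty_subset A))

open Classical in
theorem measurable_filter_prod {κ : Type*} (P : Finset κ) (A : κ → Set E)
    (f : κ → Multiset E → ℝ≥0∞)
    (hA : ∀ p ∈ P, MeasurableSet (A p)) (hf : ∀ p ∈ P, Measurable (f p)) :
    Measurable (fun m : Multiset E => ∏ p ∈ P, f p (m.filter (· ∈ A p))) :=
  Finset.measurable_prod _ fun p hp => (hf p hp).comp (measurable_filter (hA p hp))

open Classical in
/-- Factorisation over a finite family of disjoint regions. -/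
theorem factor_family {κ : Type*} (P : Finset κ) (A : κ → Set E)
    (f : κ → Multiset E → ℝ≥0∞)
    (hA : ∀ p ∈ P, MeasurableSet (A p)) (hf : ∀ p ∈ P, Measurable (f p))
    (hd : ∀ p ∈ P, ∀ q ∈ P, p ≠ q → Disjoint (A p) (A q)) :
    ∫⁻ m in In (⋃ p ∈ P, A p), ∏ p ∈ P, f p (m.filter (· ∈ A p)) ∂Pm =
    ∏ p ∈ P, ∫⁻ m in In (A p), f p m ∂Pm := by
  induction P using Finset.induction_on with
  | empty =>
    simp only [Finset.prod_empty, Finset.notMem_empty, iUnion_of_empty, iUnion_empty]
    exact lintegral_In_empty (f := fun _ => 1) measurable_const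
  | insert a P ha ih =>
    rw [Finset.prod_insert ha]
    rw [← ih (fun p hp => hA p (Finset.mem_insert_of_mem hp))
      (fun p hp => hf p (Finset.mem_insert_of_mem hp))
      (fun p hp q hq hpq => hd p (Finset.mem_insert_of_mem hp) q (Finset.mem_insert_of_mem hq) hpq)]
    have hPm : MeasurableSet (⋃ p ∈ P, A p) :=
      Finset.measurableSet_biUnion _ fun p hp => hA p (Finset.mem_insert_of_mem hp)
    have hdis : Disjoint (A a) (⋃ p ∈ P, A p) := by
      simp only [disjoint_iUnion_right]
      intro p hp
      exact hd a (Finset.mem_insert_self a P) p (Finset.mem_insert_of_mem hp)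
        (fun h => ha (h ▸ hp))
    rw [← factor_two (hA a (Finset.mem_insert_self a P)) hPm hdis
      (hf a (Finset.mem_insert_self a P))
      (measurable_filter_prod P A f (fun p hp => hA p (Finset.mem_insert_of_mem hp))
        (fun p hp => hf p (Finset.mem_insert_of_mem hp)))]
    rw [Finset.set_biUnion_insert]
    congr 1
    ext m
    rw [Finset.prod_insert ha]
    congr 1
    refine Finset.prod_congr rfl fun p hp => ?_
    congr 1
    rw [Multiset.filter_filter]
    refine Multiset.filter_congr fun x _ => ?_
    constructor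
    · intro h
      exact ⟨h, mem_biUnion hp h⟩
    · intro h
      exact h.1

theorem ae_In {A : Set E} (hA : MeasurableSet A) : ∀ᵐ m ∂(Pm.restrict (In A)), m ∈ In A :=
  ae_restrict_mem (measurableSet_In hA)

theorem measurable_card : Measurable (fun m : Multiset E => m.card) := by
  apply measurable_of_conf
  intro n
  have : (fun x : Fin n → E => (conf x).card) = fun _ => n := by
    ext x
    simp [conf]
  rw [this]
  exact measurable_const

theorem measurable_map_add (a : E) : Measurable (fun m : Multiset E => m.map (a + ·)) := by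
  apply measurable_of_conf
  intro n
  have : (fun x : Fin n → E => (conf x).map (a + ·)) =
      (fun y : Fin n → E => conf y) ∘ (fun x : Fin n → E => fun i => a + x i) := by
    ext x
    simp only [conf, Function.comp_apply, Multiset.map_map]
  rw [this]
  refine measurable_conf.comp ?_
  rw [measurable_pi_iff]
  intro i
  exact Measurable.const_add (measurable_pi_apply (X := fun _ : Fin n => E) i) a

/-- Translation covariance. -/
theorem lintegral_translate (a : E) {A B : Set E} (hA : MeasurableSet A) (hB : MeasurableSet B)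
    (hAB : ∀ x, a + x ∈ B ↔ x ∈ A) {f : Multiset E → ℝ≥0∞} (hf : Measurable f) :
    ∫⁻ m in In B, f m ∂Pm = ∫⁻ m in In A, f (m.map (a + ·)) ∂Pm := by
  have hfm : Measurable (fun m : Multiset E => f (m.map (a + ·))) :=
    hf.comp (measurable_map_add a)
  rw [lintegral_In hB hf, lintegral_In hA hfm]
  congr 1
  ext n
  congr 1
  unfold I
  have hmp : MeasurePreserving (fun x : Fin n → E => (fun _ : Fin n => a) + x) volume volume :=
    measurePreserving_add_left volume _
  have hemb : MeasurableEmbedding (fun x : Fin n → E => (fun _ : Fin n => a) + x) :=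
    measurableEmbedding_addLeft _
  rw [← hmp.setLIntegral_comp_preimage_emb hemb]
  congr 1
  · congr 1
    ext x
    simp only [mem_preimage]
    constructor
    · intro h i
      exact (hAB _).1 (h i)
    · intro h i
      exact (hAB _).2 (h i)
  · ext x
    congr 1
    simp only [conf, Multiset.map_map]
    rfl

/-- Integral of an exponential weight. -/
theorem lintegral_pow {A : Set E} (hA : MeasurableSet A) (z : ℝ) (hz : 0 ≤ z) (v : ℝ)
    (hv : 0 ≤ v) (hvol : volume A = ENNReal.ofReal v) :
    ∫⁻ m in In A, ENNReal.ofReal (z ^ (m.card)) ∂Pm = ENNReal.ofReal (Real.exp (z * v)) := by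
  rw [lintegral_In hA]
  · have : ∀ n : ℕ, ((n.factorial : ℝ≥0∞))⁻¹ *
        I A (fun m : Multiset E => ENNReal.ofReal (z ^ (m.card))) n =
        ENNReal.ofReal ((z * v) ^ n / n.factorial) := by
      intro n
      unfold I
      have h1 : ∀ x : Fin n → E, (conf x).card = n := by
        intro x
        simp [conf]
      simp_rw [h1]
      have h2 : {x : Fin n → E | ∀ i, x i ∈ A} = Set.pi univ fun _ => A := by
        ext x
        simp [Set.mem_pi]
      rw [setLIntegral_const, h2, volume_pi_pi, hvol, Finset.prod_const, Finset.card_univ,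
        Fintype.card_fin, ← ENNReal.ofReal_pow hv, ← ENNReal.ofReal_mul (by positivity),
        ← mul_pow, ENNReal.ofReal_div_of_pos (by positivity), ENNReal.div_eq_inv_mul]
      congr 2
      rw [ENNReal.ofReal_natCast]
    simp_rw [this]
    rw [← ENNReal.ofReal_tsum_of_nonneg]
    · congr 1
      rw [Real.exp_eq_exp_ℝ, NormedSpace.exp_eq_tsum_div]
    · intro n
      positivity
    · exact Real.summable_pow_div_factorial _
  · apply Measurable.ennreal_ofReal
    exact (measurable_from_top (f := fun n : ℕ => z ^ n)).comp measurable_card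

end

end Vale.Agent.P171
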