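import Vale.Agent.P171.Pressure

open MeasureTheory Set Filter Topology
open scoped ENNReal

namespace Vale.Agent.P171

noncomputable section

variable {A : ℝ} {c : ℕ → ℝ}

open Classical in
theorem multiset_split {α β : Type*} (q : α → β) (P : Finset β) (m : Multiset α)
    (hP : ∀ x ∈ m, q x ∈ P) : m = ∑ p ∈ P, m.filter (fun x => q x = p) := by
  induction m using Multiset.induction_on with
  | empty => simp
  | cons a m ih =>
    have h1 : ∀ p ∈ P, (a ::ₘ m).filter (fun x => q x = p) =
        (m.filter (fun x => q x = p)) + if q a = p then {a} else 0 := by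
      intro p _
      by_cases h : q a = p
      · rw [Multiset.filter_cons_of_pos (p := fun x => q x = p) _ h, if_pos h, add_comm,
          Multiset.singleton_add]
      · rw [Multiset.filter_cons_of_neg (p := fun x => q x = p) _ h, if_neg h, add_zero]
    rw [Finset.sum_congr rfl h1, Finset.sum_add_distrib, Finset.sum_ite_eq,
      if_pos (hP a (Multiset.mem_cons_self a m)),
      ← ih (fun x hx => hP x (Multiset.mem_cons_of_mem hx)), add_comm, Multiset.singleton_add]

/-- indicator of exactly one particle -/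
def one1 (m : Multiset E) : ℝ≥0∞ := if m.card = 1 then 1 else 0

theorem measurable_one1 : Measurable one1 := by
  have : Measurable (fun n : ℕ => if n = 1 then (1 : ℝ≥0∞) else 0) := measurable_from_top
  exact this.comp measurable_card

theorem lintegral_one1 {s : Set E} (hs : MeasurableSet s) :
    ∫⁻ m in In s, one1 m ∂Pm = volume s := by
  rw [lintegral_In hs measurable_one1, tsum_eq_single 1]
  · unfold I one1
    have h1 : ∀ x : Fin 1 → E, (conf x).card = 1 := by
      intro x
      simp [conf]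
    simp_rw [h1]
    have h2 : {x : Fin 1 → E | ∀ i, x i ∈ s} = Set.pi univ fun _ => s := by
      ext x
      simp [Set.mem_pi]
    rw [h2]
    simp [volume_pi_pi]
  · intro n hn
    unfold I one1
    have h1 : ∀ x : Fin n → E, (conf x).card = n := by
      intro x
      simp [conf]
    simp_rw [h1, if_neg hn]
    simp

/-- corner of the crystal cell -/
def Qc (p : Fin 3 → ℤ) : Set E := box (fun i => 4 * (p i : ℝ)) 1

theorem blk_of_mem_Qc {p : Fin 3 → ℤ} {x : E} (hx : x ∈ Qc p) : blk 4 0 x = p := by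
  rw [blk_eq_iff (by omega)]
  intro i
  have := hx i
  push_cast at this ⊢
  constructor <;> linarith [this.1, this.2]

theorem dist_Qc {p q : Fin 3 → ℤ} {x y : E} (hpq : p ≠ q) (hx : x ∈ Qc p) (hy : y ∈ Qc q) :
    2 < dist x y := by
  obtain ⟨i, hi⟩ : ∃ i, p i ≠ q i := by
    by_contra hc
    push Not at hc
    exact hpq (funext hc)
  have h1 : |x i - y i| ≤ dist x y := by
    rw [dist_eq_norm]
    exact abs_coord_le (x - y) i
  have hxi := hx i
  have hyi := hy i
  rcases lt_or_gt_of_ne hi with h | h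
  · have h2 : (p i : ℝ) + 1 ≤ q i := by exact_mod_cast h
    rw [abs_le] at h1
    linarith [hxi.1, hxi.2, hyi.1, hyi.2, h1.1, h1.2]
  · have h2 : (q i : ℝ) + 1 ≤ p i := by exact_mod_cast h
    rw [abs_le] at h1
    linarith [hxi.1, hxi.2, hyi.1, hyi.2, h1.1, h1.2]

theorem dist_Qc_le {p q : Fin 3 → ℤ} {x y : E} (hx : x ∈ Qc p) (hy : y ∈ Qc q) :
    dist x y ≤ ‖vec 4 (q - p)‖ + 2 := by
  have h1 : ‖(y - x) - vec 4 (q - p)‖ ≤ 2 * 1 := by
    apply norm_le_two_mul zero_le_one
    intro i
    have hxi := hx i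
    have hyi := hy i
    rw [PiLp.sub_apply, PiLp.sub_apply, vec_apply, Pi.sub_apply, abs_le]
    push_cast
    constructor <;> linarith [hxi.1, hxi.2, hyi.1, hyi.2]
  calc dist x y = ‖y - x‖ := by rw [dist_comm, dist_eq_norm]
    _ = ‖vec 4 (q - p) + ((y - x) - vec 4 (q - p))‖ := by rw [add_sub_cancel]
    _ ≤ ‖vec 4 (q - p)‖ + ‖(y - x) - vec 4 (q - p)‖ := norm_add_le _ _
    _ ≤ ‖vec 4 (q - p)‖ + 2 := by linarith

/-- the index set -/
def Pn (n : ℕ) : Finset (Fin 3 → ℤ) := Fintype.piFinset (fun _ => Finset.Ico (0 : ℤ) n)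

theorem card_Pn (n : ℕ) : (Pn n).card = n ^ 3 := by
  simp [Pn]

/-- size of the inner index box -/
def gapN (n k : ℕ) : ℕ := n - 2 * (k + 200)

theorem gapN_le (n k : ℕ) : gapN n k ≤ n := Nat.sub_le n _

theorem gapN_eq {n k : ℕ} (h : 2 * (k + 200) ≤ n) : (gapN n k : ℝ) = n - 2 * ((k : ℝ) + 200) := by
  unfold gapN
  rw [Nat.cast_sub h]
  push_cast
  ring

theorem gapN_toNat (n k : ℕ) :
    ((n : ℤ) - (k + 200) - ((k : ℤ) + 200)).toNat = gapN n k := by
  unfold gapN
  omega

attribute [irreducible] gapN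

theorem crystal_kap (k n : ℕ) (x : (Fin 3 → ℤ) → E) (hx : ∀ p ∈ Pn n, x p ∈ Qc p) :
    3 / 256 * ((gapN n k : ℝ)) ^ 3 ≤
      S (fun x y => kap k (dist x y)) ((Pn n).val.map x) := by
  classical
  rw [S_finset]
  obtain ⟨T, hT⟩ := exists_T (Rk k - 2) (by norm_num : (0 : ℝ) < 4)
  have hR := Rk_ge k
  have hv := vb_pos
  have hcT := count_lower (by norm_num : (0 : ℝ) < 4) (r := Rk k - 2) (by linarith) T
    (fun D hD => (hT D).2 hD)
  let P' : Finset (Fin 3 → ℤ) :=
    Fintype.piFinset (fun _ => Finset.Ico ((k : ℤ) + 200) ((n : ℤ) - (k + 200)))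
  have hP' : P'.card = (gapN n k) ^ 3 := by
    simp only [P', Fintype.card_piFinset, Int.card_Ico, Finset.prod_const, Finset.card_univ,
      Fintype.card_fin, gapN_toNat]
  have hP'P : P' ⊆ Pn n := by
    intro p hp
    unfold Pn
    rw [Fintype.mem_piFinset] at hp ⊢
    intro i
    have := hp i
    rw [Finset.mem_Ico] at this ⊢
    omega
  have hin : ∀ p ∈ P', ∀ D ∈ T, p + D ∈ Pn n := by
    intro p hp D hD
    unfold Pn
    rw [Fintype.mem_piFinset] at hp ⊢
    intro i
    have h1 := hp i
    have h2 := (hT D).1 hD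
    have h3 := abs_coord_le (vec 4 D) i
    rw [vec_apply] at h3
    have h4 : |4 * (D i : ℝ)| ≤ (k : ℝ) + 198 := by
      refine h3.trans (h2.trans (le_of_eq ?_))
      unfold Rk
      ring
    rw [abs_le] at h4
    have h5 : 4 * D i ≤ (k : ℤ) + 198 := by exact_mod_cast h4.2
    have h6 : -((k : ℤ) + 198) ≤ 4 * D i := by exact_mod_cast h4.1
    rw [Finset.mem_Ico] at h1 ⊢
    simp only [Pi.add_apply]
    omega
  have h1 : ∀ p ∈ P', (T.card : ℝ) * (1 / (vb * Rk k ^ 3)) ≤
      ∑ q ∈ Pn n, kap k (dist (x p) (x q)) := by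
    intro p hp
    have h2 : ∑ q ∈ T.image (p + ·), kap k (dist (x p) (x q)) ≤
        ∑ q ∈ Pn n, kap k (dist (x p) (x q)) := by
      apply Finset.sum_le_sum_of_subset_of_nonneg
      · intro q hq
        obtain ⟨D, hD, rfl⟩ := Finset.mem_image.1 hq
        exact hin p hp D hD
      · intro q _ _
        exact kap_nonneg _ _
    refine le_trans ?_ h2
    rw [Finset.sum_image (fun a _ b _ h => add_left_cancel h), ← nsmul_eq_mul]
    apply Finset.card_nsmul_le_sum
    intro D hD
    have h3 : dist (x p) (x (p + D)) ≤ Rk k := by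
      have h4 := dist_Qc_le (hx p (hP'P hp)) (hx (p + D) (hin p hp D hD))
      rw [add_sub_cancel_left] at h4
      linarith [(hT D).1 hD]
    unfold kap
    rw [if_pos h3]
  have h2 : (P'.card : ℝ) * ((T.card : ℝ) * (1 / (vb * Rk k ^ 3))) ≤
      ∑ p ∈ Pn n, ∑ q ∈ Pn n, kap k (dist (x p) (x q)) := by
    rw [← nsmul_eq_mul]
    refine (Finset.card_nsmul_le_sum P' _ _ h1).trans ?_
    apply Finset.sum_le_sum_of_subset_of_nonneg hP'P
    intro p _ _
    exact Finset.sum_nonneg fun q _ => kap_nonneg _ _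
  refine le_trans ?_ h2
  rw [hP']
  push_cast
  have h3 : (3 : ℝ) / 256 ≤ (T.card : ℝ) * (1 / (vb * Rk k ^ 3)) := by
    have hR0 := Rk_pos k
    rw [mul_one_div, le_div_iff₀ (by positivity)]
    have h4 : vb * (Rk k - 10) ^ 3 ≤ 64 * (T.card : ℝ) := by
      refine le_trans (le_of_eq ?_) (hcT.trans (le_of_eq ?_))
      · ring
      · ring
    have h5 : 3 / 4 * Rk k ^ 3 ≤ (Rk k - 10) ^ 3 := by
      have h6 : (19 / 20 * Rk k) ^ 3 ≤ (Rk k - 10) ^ 3 := by
        apply pow_le_pow_left₀ (by positivity)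
        linarith
      have h7 : 3 / 4 * Rk k ^ 3 ≤ (19 / 20 * Rk k) ^ 3 := by
        rw [mul_pow]
        have : 0 < Rk k ^ 3 := by positivity
        nlinarith
      linarith
    nlinarith [mul_le_mul_of_nonneg_left h5 hv.le]
  rw [mul_comm]
  gcongr

/-- Lower bound function. -/
def gk (n k : ℕ) : ℝ := ((gapN n k : ℝ) / n) ^ 3

theorem gk_nonneg (n k : ℕ) : 0 ≤ gk n k := by
  unfold gk
  positivity

theorem gk_le (n k : ℕ) : gk n k ≤ 1 := by
  unfold gk
  apply pow_le_one₀ (by positivity)
  apply div_le_one_of_le₀ _ (Nat.cast_nonneg n)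
  exact_mod_cast gapN_le n k

theorem summable_gk (hc0 : ∀ k, 0 ≤ c k) (hc : Summable c) (n : ℕ) :
    Summable fun k => c k * gk n k :=
  Summable.of_nonneg_of_le (fun k => mul_nonneg (hc0 k) (gk_nonneg n k))
    (fun k => mul_le_of_le_one_right (hc0 k) (gk_le n k)) hc

theorem crystal_W (h : Adm A c) (μ : ℝ) {n : ℕ} (hn : 0 < n) (x : (Fin 3 → ℤ) → E)
    (hx : ∀ p ∈ Pn n, x p ∈ Qc p) :
    (n : ℝ) ^ 3 * ((μ - A / 2) + 3 / 512 * ∑' k, c k * gk n k) ≤
      μ * (((Pn n).val.map x).card : ℝ) - H A c ((Pn n).val.map x) := by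
  have hn' : (0 : ℝ) < n := by exact_mod_cast hn
  unfold H
  rw [S_phi]
  have h1 : (((Pn n).val.map x).card : ℝ) = (n : ℝ) ^ 3 := by
    rw [Multiset.card_map]
    have : Multiset.card (Pn n).val = n ^ 3 := card_Pn n
    rw [this]
    push_cast
    rfl
  have h2 : S (fun x y => if dist x y ≤ 2 then 1 else 0) ((Pn n).val.map x) = (n : ℝ) ^ 3 := by
    rw [S_finset]
    have : ∀ p ∈ Pn n, ∑ q ∈ Pn n, (if dist (x p) (x q) ≤ 2 then (1 : ℝ) else 0) = 1 := by
      intro p hp
      rw [Finset.sum_eq_single p]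
      · simp
      · intro q hq hqp
        rw [if_neg]
        exact not_le.2 (dist_Qc (Ne.symm hqp) (hx p hp) (hx q hq))
      · exact fun h => absurd hp h
    rw [Finset.sum_congr rfl this]
    simp [card_Pn]
  have h3 : (n : ℝ) ^ 3 * (3 / 256 * ∑' k, c k * gk n k) ≤
      S (fun x y => psi c (dist x y)) ((Pn n).val.map x) := by
    rw [S_psi h.2.1]
    have h4 : (n : ℝ) ^ 3 * (3 / 256 * ∑' k, c k * gk n k) =
        ∑' k, c k * ((n : ℝ) ^ 3 * (3 / 256) * gk n k) := by
      rw [← mul_assoc, ← tsum_mul_left]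
      congr 1
      ext k
      ring
    rw [h4]
    refine Summable.tsum_le_tsum (fun k => ?_) ?_ (summable_S_kap h.2.1 _)
    · apply mul_le_mul_of_nonneg_left _ (h.1 k)
      refine le_trans (le_of_eq ?_) (crystal_kap k n x hx)
      unfold gk
      rw [div_pow]
      field_simp
    · have := (summable_gk h.1 h.2.1 n).mul_left ((n : ℝ) ^ 3 * (3 / 256))
      refine this.congr fun k => ?_
      ring
  rw [h1, h2]
  nlinarith [h3]

theorem crystal_Xi (h : Adm A c) (μ : ℝ) {n : ℕ} (hn : 0 < n) :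
    ew ((n : ℝ) ^ 3 * ((μ - A / 2) + 3 / 512 * ∑' k, c k * gk n k)) ≤ Xi A c μ (4 * n) := by
  classical
  set v := (n : ℝ) ^ 3 * ((μ - A / 2) + 3 / 512 * ∑' k, c k * gk n k) with hv
  have hAm : ∀ p ∈ Pn n, MeasurableSet (Qc p) := fun p _ => measurableSet_box _ _
  have hdis : ∀ p ∈ Pn n, ∀ q ∈ Pn n, p ≠ q → Disjoint (Qc p) (Qc q) := by
    intro p _ q _ hpq
    rw [Set.disjoint_left]
    intro x hx hy
    exact hpq ((blk_of_mem_Qc hx).symm.trans (blk_of_mem_Qc hy))
  have hfac := factor_family (Pn n) Qc (fun _ => one1) hAm (fun _ _ => measurable_one1) hdis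
  have h1 : ∏ p ∈ Pn n, ∫⁻ m in In (Qc p), one1 m ∂Pm = 1 := by
    apply Finset.prod_eq_one
    intro p _
    have h9 : volume (Qc p) = 1 := by
      unfold Qc
      rw [volume_box _ zero_le_one]
      simp
    rw [lintegral_one1 (hAm p ‹_›), h9]
  rw [h1] at hfac
  have hsub : (⋃ p ∈ Pn n, Qc p) ⊆ box (fun _ => 0) (4 * n : ℕ) := by
    intro x hx
    simp only [mem_iUnion] at hx
    obtain ⟨p, hp, hx⟩ := hx
    intro i
    have h2 := hx i
    have h3 : p i ∈ Finset.Ico (0 : ℤ) n := Fintype.mem_piFinset.1 hp i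
    rw [Finset.mem_Ico] at h3
    have h4 : (0 : ℝ) ≤ p i := by exact_mod_cast h3.1
    have h5 : (p i : ℝ) + 1 ≤ n := by exact_mod_cast h3.2
    push_cast
    constructor <;> linarith [h2.1, h2.2]
  have hUm : MeasurableSet (⋃ p ∈ Pn n, Qc p) := Finset.measurableSet_biUnion _ hAm
  calc ew v = ew v * ∫⁻ m in In (⋃ p ∈ Pn n, Qc p), ∏ p ∈ Pn n, one1 (m.filter (· ∈ Qc p)) ∂Pm := by
        rw [hfac, mul_one]
    _ = ∫⁻ m in In (⋃ p ∈ Pn n, Qc p), ew v * ∏ p ∈ Pn n, one1 (m.filter (· ∈ Qc p)) ∂Pm := by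
        rw [lintegral_const_mul]
        exact measurable_filter_prod _ _ (fun _ => one1) hAm (fun _ _ => measurable_one1)
    _ ≤ ∫⁻ m in In (⋃ p ∈ Pn n, Qc p), W A c μ m ∂Pm := by
        refine setLIntegral_mono' (measurableSet_In hUm) fun m hm => ?_
        by_cases hall : ∀ p ∈ Pn n, (m.filter (· ∈ Qc p)).card = 1
        · have hcls : ∀ x ∈ m, ∃ p ∈ Pn n, x ∈ Qc p := by
            intro x hx
            have := hm x hx
            simpa only [mem_iUnion, exists_prop] using this
          have hP : ∀ x ∈ m, blk 4 0 x ∈ Pn n := by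
            intro x hx
            obtain ⟨p, hp, hxp⟩ := hcls x hx
            rw [blk_of_mem_Qc hxp]
            exact hp
          have hfil : ∀ p ∈ Pn n, m.filter (fun x => blk 4 0 x = p) = m.filter (· ∈ Qc p) := by
            intro p _
            apply Multiset.filter_congr
            intro x hx
            constructor
            · intro h'
              obtain ⟨q, hq, hxq⟩ := hcls x hx
              rw [← h', blk_of_mem_Qc hxq]
              exact hxq
            · intro h'
              exact blk_of_mem_Qc h'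
          have hex : ∀ p, ∃ x : E, p ∈ Pn n → m.filter (· ∈ Qc p) = {x} := by
            intro p
            by_cases hp : p ∈ Pn n
            · obtain ⟨x, hx⟩ := Multiset.card_eq_one.1 (hall p hp)
              exact ⟨x, fun _ => hx⟩
            · exact ⟨0, fun h => absurd h hp⟩
          choose x hx using hex
          have hmx : m = (Pn n).val.map x := by
            have h8 := multiset_split (blk 4 0) (Pn n) m hP
            have h9 : ∑ p ∈ Pn n, m.filter (fun x => blk 4 0 x = p) = ∑ p ∈ Pn n, {x p} := by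
              refine Finset.sum_congr rfl fun p hp => ?_
              rw [← hx p hp, ← hfil p hp]
            have h10 : ∑ p ∈ Pn n, ({x p} : Multiset E) = (Pn n).val.map x := by
              show ((Pn n).val.map (fun p => ({x p} : Multiset E))).sum = _
              have h11 := Multiset.sum_map_singleton ((Pn n).val.map x)
              rw [Multiset.map_map] at h11
              exact h11
            rw [← h10, ← h9]
            convert h8
          have hxQ : ∀ p ∈ Pn n, x p ∈ Qc p := by
            intro p hp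
            have h5 : x p ∈ m.filter (· ∈ Qc p) := by
              rw [hx p hp]
              exact Multiset.mem_singleton_self _
            exact (Multiset.mem_filter.1 h5).2
          have h6 : ∏ p ∈ Pn n, one1 (m.filter (· ∈ Qc p)) = 1 := by
            apply Finset.prod_eq_one
            intro p hp
            unfold one1
            rw [if_pos (hall p hp)]
          rw [h6, mul_one, hmx]
          exact ew_mono (crystal_W h μ hn x hxQ)
        · push Not at hall
          obtain ⟨p, hp, hne⟩ := hall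
          have h6 : ∏ p ∈ Pn n, one1 (m.filter (· ∈ Qc p)) = 0 := by
            apply Finset.prod_eq_zero hp
            unfold one1
            rw [if_neg hne]
          rw [h6, mul_zero]
          exact zero_le
    _ ≤ Xi A c μ (4 * n) := lintegral_mono_set (In_mono hsub)

theorem tendsto_gk (k : ℕ) : Tendsto (fun n : ℕ => gk n k) atTop (𝓝 1) := by
  unfold gk
  have h1 : Tendsto (fun n : ℕ => (gapN n k : ℝ) / n) atTop (𝓝 1) := by
    have h2 : Tendsto (fun n : ℕ => 1 - (2 * ((k : ℝ) + 200)) * ((n : ℝ))⁻¹) atTop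
        (𝓝 (1 - (2 * ((k : ℝ) + 200)) * 0)) :=
      Tendsto.const_sub _ (Tendsto.const_mul _ tendsto_inv_atTop_nhds_zero_nat)
    rw [mul_zero, sub_zero] at h2
    refine h2.congr' ?_
    filter_upwards [eventually_ge_atTop (2 * (k + 200)), eventually_gt_atTop 0] with n hn hn0
    rw [gapN_eq hn]
    have : (n : ℝ) ≠ 0 := by exact_mod_cast hn0.ne'
    field_simp
  simpa using h1.pow 3

theorem crystal_F (h : Adm A c) (μ : ℝ) :
    1 / 64 * (μ - A / 2) + 3 / 32768 * (∑' k, c k) ≤ F A c μ := by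
  have h1 : Tendsto (fun n : ℕ => lg (Xi A c μ (4 * n)) / ((4 * n : ℕ) : ℝ) ^ 3) atTop
      (𝓝 (F A c μ)) := by
    refine (tendsto_F h μ).comp ?_
    exact tendsto_id.const_mul_atTop' (by norm_num)
  have h2 : Tendsto (fun n : ℕ => 1 / 64 * ((μ - A / 2) + 3 / 512 * ∑' k, c k * gk n k)) atTop
      (𝓝 (1 / 64 * ((μ - A / 2) + 3 / 512 * ∑' k, c k * 1))) := by
    refine Tendsto.const_mul _ (Tendsto.const_add _ (Tendsto.const_mul _ ?_))
    refine tendsto_tsum_of_dominated_convergence (bound := c) h.2.1 (fun k => ?_) ?_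
    · exact (tendsto_gk k).const_mul _
    · refine Eventually.of_forall fun n k => ?_
      rw [Real.norm_eq_abs, abs_of_nonneg (mul_nonneg (h.1 k) (gk_nonneg n k))]
      exact mul_le_of_le_one_right (h.1 k) (gk_le n k)
  have h3 := le_of_tendsto_of_tendsto h2 h1 (by
    filter_upwards [eventually_gt_atTop 0] with n hn
    have hn' : (0 : ℝ) < n := by exact_mod_cast hn
    have h4 := le_lg (crystal_Xi h μ hn) (Xi_ne_top h μ _)
    push_cast
    rw [le_div_iff₀ (by positivity)]
    refine le_trans (le_of_eq ?_) h4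
    ring)
  simp only [mul_one] at h3
  linarith

end

end Vale.Agent.P171
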