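import Mathlib

open MeasureTheory Filter Topology
open scoped ENNReal

namespace Vale.Agent.P171

/-- Three-dimensional Euclidean space with the Euclidean norm. -/
abbrev R3 := EuclideanSpace ℝ (Fin 3)

/-- The energy of `N` particles with pair potential `φ`: the sum over all pairs `i < j` of
`φ (|x i - x j|)`. -/
noncomputable def energy (φ : ℝ → ℝ) {N : ℕ} (x : Fin N → R3) : ℝ :=
  ∑ i : Fin N, ∑ j ∈ Finset.univ.filter (fun j : Fin N => i < j), φ (dist (x i) (x j))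

/-- `φ` is bounded on compact subsets of `(0, ∞)`. -/
def LocallyBoundedPos (φ : ℝ → ℝ) : Prop :=
  ∀ a b : ℝ, 0 < a → ∃ K : ℝ, ∀ r : ℝ, a ≤ r → r ≤ b → |φ r| ≤ K

/-- Stability. -/
def IsStable (φ : ℝ → ℝ) : Prop :=
  ∃ B : ℝ, ∀ (N : ℕ) (x : Fin N → R3), Function.Injective x → -(B * N) ≤ energy φ x

/-- Temperedness. -/
def IsTempered (φ : ℝ → ℝ) : Prop :=
  ∃ C ε R₀ : ℝ, 0 < C ∧ 0 < ε ∧ 0 < R₀ ∧ ∀ r : ℝ, R₀ ≤ r → φ r ≤ C * r ^ (-3 - ε)

/-- The canonical partition function of `N` particles in the cube `[0, L]^3`. -/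
noncomputable def canonicalZ (φ : ℝ → ℝ) (β L : ℝ) (N : ℕ) : ℝ≥0∞ :=
  ((N.factorial : ℝ≥0∞))⁻¹ *
    ∫⁻ x in {x : Fin N → R3 | ∀ i j, x i j ∈ Set.Icc (0 : ℝ) L},
      ENNReal.ofReal (Real.exp (-(β * energy φ x)))

/-- The grand canonical partition function at activity `z`. -/
noncomputable def grandZ (φ : ℝ → ℝ) (β z L : ℝ) : ℝ≥0∞ :=
  ∑' N : ℕ, ENNReal.ofReal (z ^ N) * canonicalZ φ β L N

/-- `P` is the (thermodynamic limit) pressure times `β`, as a function of the activity: for every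
`z > 0` all finite-volume grand canonical partition functions are finite and
`L⁻³ log grandZ → P z` as `L → ∞` over the reals. -/
def IsPressure (φ : ℝ → ℝ) (β : ℝ) (P : ℝ → ℝ) : Prop :=
  ∀ z : ℝ, 0 < z → (∀ L : ℝ, grandZ φ β z L ≠ ⊤) ∧
    Tendsto (fun L : ℝ => Real.log (grandZ φ β z L).toReal / L ^ 3) atTop (𝓝 (P z))

end Vale.Agent.P171
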