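import Vale.Agent.P171.Kac

open MeasureTheory Set Filter Topology
open scoped ENNReal

namespace Vale.Agent.P171

noncomputable section

/-- Ekeland's variational principle. -/
theorem ekeland {X : Type*} [MetricSpace X] [CompleteSpace X] (f : X → ℝ)
    (hf : LowerSemicontinuous f) (hb : ∀ x, 0 ≤ f x) (x0 : X) {ε : ℝ} (hε : 0 < ε) :
    ∃ z, f z + ε * dist x0 z ≤ f x0 ∧ ∀ x, f z ≤ f x + ε * dist z x := by
  let G : X → Set X := fun x => {y | f y + ε * dist x y ≤ f x}
  have hGself : ∀ x, x ∈ G x := fun x => by simp [G]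
  have hGtrans : ∀ x y z, y ∈ G x → z ∈ G y → z ∈ G x := by
    intro x y z hy hz
    have h1 : f y + ε * dist x y ≤ f x := hy
    have h2 : f z + ε * dist y z ≤ f y := hz
    have h3 := dist_triangle x y z
    show f z + ε * dist x z ≤ f x
    nlinarith
  have hGclosed : ∀ x, IsClosed (G x) := by
    intro x
    have h1 : LowerSemicontinuous (fun y => f y + ε * dist x y) :=
      hf.add (by fun_prop : Continuous fun y => ε * dist x y).lowerSemicontinuous
    exact h1.isClosed_preimage (f x)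
  have hchoice : ∀ (n : ℕ) (x : X), ∃ y, y ∈ G x ∧ ∀ z ∈ G x, f y ≤ f z + (1 / 2) ^ n := by
    intro n x
    have hbdd : BddBelow (f '' G x) := ⟨0, by
      rintro _ ⟨y, _, rfl⟩
      exact hb y⟩
    have hne : (f '' G x).Nonempty := ⟨f x, x, hGself x, rfl⟩
    have hpos : (0 : ℝ) < (1 / 2) ^ n := by positivity
    obtain ⟨_, ⟨y, hy, rfl⟩, hlt⟩ := exists_lt_of_csInf_lt hne
      (lt_add_of_pos_right (sInf (f '' G x)) hpos)
    refine ⟨y, hy, fun z hz => ?_⟩
    have := csInf_le hbdd ⟨z, hz, rfl⟩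
    linarith
  choose g hg1 hg2 using hchoice
  let u : ℕ → X := fun n => Nat.rec x0 (fun n x => g n x) n
  have hu0 : u 0 = x0 := rfl
  have hus : ∀ n, u (n + 1) = g n (u n) := fun n => rfl
  have hstep : ∀ n, u (n + 1) ∈ G (u n) := fun n => hg1 n (u n)
  have hmem : ∀ n m, n ≤ m → u m ∈ G (u n) := by
    intro n m hnm
    induction m, hnm using Nat.le_induction with
    | base => exact hGself _
    | succ m _ ih => exact hGtrans _ _ _ ih (hstep m)
  have hsmall : ∀ n, ∀ z ∈ G (u (n + 1)), ε * dist (u (n + 1)) z ≤ (1 / 2) ^ n := by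
    intro n z hz
    have h1 : f z + ε * dist (u (n + 1)) z ≤ f (u (n + 1)) := hz
    have h2 := hg2 n (u n) z (hGtrans _ _ _ (hstep n) hz)
    rw [← hus] at h2
    linarith
  have hcauchy : CauchySeq u := by
    rw [← cauchySeq_shift 1]
    apply cauchySeq_of_le_geometric (1 / 2) (1 / ε) (by norm_num)
    intro n
    have h1 := hsmall n (u (n + 1 + 1)) (hstep (n + 1))
    rw [one_div_mul_eq_div, le_div_iff₀ hε]
    linarith
  obtain ⟨z, hz⟩ := cauchySeq_tendsto_of_complete hcauchy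
  have hzG : ∀ n, z ∈ G (u n) := by
    intro n
    apply (hGclosed (u n)).mem_of_tendsto hz
    filter_upwards [eventually_ge_atTop n] with m hm
    exact hmem n m hm
  refine ⟨z, ?_, ?_⟩
  · have := hzG 0
    rw [hu0] at this
    exact this
  · intro x
    by_contra hcon
    push Not at hcon
    have hx : x ∈ G z := hcon.le
    have h1 : Tendsto (fun n => u (n + 1)) atTop (𝓝 x) := by
      rw [tendsto_iff_dist_tendsto_zero]
      have h2 : Tendsto (fun n : ℕ => (1 / ε) * (1 / 2 : ℝ) ^ n) atTop (𝓝 ((1 / ε) * 0)) :=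
        (tendsto_pow_atTop_nhds_zero_of_lt_one (by norm_num) (by norm_num)).const_mul _
      rw [mul_zero] at h2
      refine squeeze_zero (fun n => dist_nonneg) (fun n => ?_) h2
      have h3 := hsmall n x (hGtrans _ _ _ (hzG (n + 1)) hx)
      rw [one_div_mul_eq_div, le_div_iff₀ hε]
      linarith
    have h2 : Tendsto (fun n => u (n + 1)) atTop (𝓝 z) := hz.comp (tendsto_add_atTop_nat 1)
    have h3 := tendsto_nhds_unique h1 h2
    rw [h3] at hcon
    simp at hcon

/-- The smallness parameter. -/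
def e1 : ℝ := 1 / 131072

variable {A : ℝ} {c : ℕ → ℝ}

theorem final_limit (h : Adm A c) (μ : ℝ) {t s r : ℝ} (ht : 0 < t) (ht1 : t ≤ 1) (hs : 0 ≤ s)
    (hb : ∀ k, Adm A (bump c k t)) {x : ℝ} (hx : ∀ k, x ≤ F A (bump c k t) μ) :
    x ≤ max (F A c μ + 17 / 32 * t * r ^ 2)
      (F A c (μ + s) + 17 / 32 * t * Real.exp (μ + s) - s * r) := by
  have hal := al_tendsto h.1 h.2.1
  have hinv : Tendsto (fun n : ℕ => ((n : ℝ))⁻¹) atTop (𝓝 0) := tendsto_inv_atTop_nhds_zero_nat
  have h3 : Tendsto (fun l : ℕ => (1 + 3 / (l : ℝ)) ^ 3) atTop (𝓝 1) := by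
    have h4 : Tendsto (fun l : ℕ => (1 + 3 * ((l : ℝ))⁻¹) ^ 3) atTop (𝓝 ((1 + 3 * 0) ^ 3)) :=
      ((hinv.const_mul 3).const_add 1).pow 3
    simpa [div_eq_mul_inv] using h4
  have h5 : Tendsto (fun l : ℕ => Real.log 2 / (l : ℝ) ^ 3 + max
      ((1 + 3 / (l : ℝ)) ^ 3 * F A c μ + al c l * Real.exp μ + 17 / 32 * t * r ^ 2)
      ((1 + 3 / (l : ℝ)) ^ 3 * F A c (μ + s) + (al c l + 17 / 32 * t) * Real.exp (μ + s) - s * r))
      atTop (𝓝 (0 + max (1 * F A c μ + 0 * Real.exp μ + 17 / 32 * t * r ^ 2)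
      (1 * F A c (μ + s) + (0 + 17 / 32 * t) * Real.exp (μ + s) - s * r))) := by
    refine Tendsto.add ?_ (Tendsto.max ?_ ?_)
    · have h6 : Tendsto (fun l : ℕ => Real.log 2 * (((l : ℝ))⁻¹) ^ 3) atTop
          (𝓝 (Real.log 2 * 0 ^ 3)) := (hinv.pow 3).const_mul _
      simpa [div_eq_mul_inv] using h6
    · exact ((h3.mul_const _).add (hal.mul_const _)).add_const _
    · exact ((h3.mul_const _).add ((hal.add_const _).mul_const _)).sub_const _
  have h6 : x ≤ 0 + max (1 * F A c μ + 0 * Real.exp μ + 17 / 32 * t * r ^ 2)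
      (1 * F A c (μ + s) + (0 + 17 / 32 * t) * Real.exp (μ + s) - s * r) := by
    refine ge_of_tendsto h5 ?_
    have hev : ∀ᶠ l : ℕ in atTop, al c l < 1 / 4 := hal.eventually (gt_mem_nhds (by norm_num))
    filter_upwards [hev, eventually_gt_atTop 0] with l hl1 hl
    have hl' : (0 : ℝ) < l := by exact_mod_cast hl
    -- choose k
    obtain ⟨k, hk⟩ : ∃ k : ℕ, 5 * (l : ℝ) * 100 ≤ k := exists_nat_ge _
    have hR : 5 * (l : ℝ) / Rk k ≤ 1 / 100 := by
      rw [div_le_iff₀ (Rk_pos k)]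
      unfold Rk
      linarith
    have hR0 : 0 ≤ 5 * (l : ℝ) / Rk k := by
      have := Rk_pos k
      positivity
    set w := t / 2 * (1 + 5 * l / Rk k) ^ 3 with hw
    have hw1 : w ≤ 17 / 32 * t := by
      have h7 : (1 + 5 * l / Rk k) ^ 3 ≤ (1 + 1 / 100) ^ 3 := by gcongr
      have h8 : (1 + 5 * l / Rk k) ^ 3 ≤ 17 / 16 := h7.trans (by norm_num)
      rw [hw]
      nlinarith
    have h7 := K2 h (hb k) μ hl ht.le (r := r) hs hw (by linarith)
    refine (hx k).trans (h7.trans ?_)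
    gcongr
  simpa using h6

theorem not_differentiable (h : Adm A c) (μ : ℝ)
    (hb : ∀ k t, 0 < t → t ≤ 1 → Adm A (bump c k t))
    (hE1 : ∀ k t, 0 < t → t ≤ 1 → F A c μ + t * (5 * e1) ≤ F A (bump c k t) μ)
    (hE2 : ∀ μ', F A c μ + 1 / 128 * (μ' - μ) - e1 * |μ' - μ| ≤ F A c μ') :
    ¬ DifferentiableAt ℝ (fun μ => F A c μ) μ := by
  intro hdiff
  have he : (0 : ℝ) < e1 := by unfold e1; norm_num
  set ρ := deriv (fun μ => F A c μ) μ with hρ
  have hd : HasDerivAt (fun μ => F A c μ) ρ μ := hdiff.hasDerivAt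
  have hslope := hasDerivAt_iff_tendsto_slope.1 hd
  have hright : Tendsto (slope (fun μ => F A c μ) μ) (𝓝[>] μ) (𝓝 ρ) :=
    hslope.mono_left (nhdsWithin_mono _ (fun x hx => ne_of_gt hx))
  have hleft : Tendsto (slope (fun μ => F A c μ) μ) (𝓝[<] μ) (𝓝 ρ) :=
    hslope.mono_left (nhdsWithin_mono _ (fun x hx => ne_of_lt hx))
  have hlow : 1 / 128 - e1 ≤ ρ := by
    refine ge_of_tendsto hright ?_
    filter_upwards [self_mem_nhdsWithin] with x hx
    have hx' : 0 < x - μ := sub_pos.2 hx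
    have h1 := hE2 x
    rw [abs_of_pos hx'] at h1
    rw [slope_def_field, le_div_iff₀ hx']
    linarith
  have hupp : ρ ≤ 1 / 128 + e1 := by
    refine le_of_tendsto hleft ?_
    filter_upwards [self_mem_nhdsWithin] with x hx
    have hx' : x - μ < 0 := sub_neg.2 hx
    have h1 := hE2 x
    rw [abs_of_neg hx'] at h1
    rw [slope_def_field, div_le_iff_of_neg hx']
    linarith
  -- choose s
  have hev : ∀ᶠ x in 𝓝[>] μ, slope (fun μ => F A c μ) μ x < ρ + e1 :=
    hright.eventually (gt_mem_nhds (by linarith))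
  obtain ⟨x, hx1, hx2⟩ := (hev.and self_mem_nhdsWithin).exists
  have hx' : 0 < x - μ := sub_pos.2 hx2
  rw [slope_def_field, div_lt_iff₀ hx'] at hx1
  set s := x - μ with hs
  have hxs : x = μ + s := by rw [hs]; ring
  rw [hxs] at hx1
  set r := ρ + 2 * e1 with hr
  -- choose t
  have hexp := Real.exp_pos (μ + s)
  obtain ⟨t, ht0, ht1, ht2⟩ : ∃ t : ℝ, 0 < t ∧ t ≤ 1 ∧ t * Real.exp (μ + s) ≤ s * e1 := by
    refine ⟨min 1 (s * e1 / Real.exp (μ + s)), ?_, min_le_left _ _, ?_⟩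
    · apply lt_min one_pos
      positivity
    · calc min 1 (s * e1 / Real.exp (μ + s)) * Real.exp (μ + s)
          ≤ (s * e1 / Real.exp (μ + s)) * Real.exp (μ + s) :=
            mul_le_mul_of_nonneg_right (min_le_right _ _) hexp.le
        _ = s * e1 := by field_simp
  have hfin := final_limit h μ ht0 ht1 hx'.le (fun k => hb k t ht0 ht1) (r := r)
    (x := F A c μ + t * (5 * e1)) (fun k => hE1 k t ht0 ht1)
  rcases le_max_iff.1 hfin with h1 | h1
  · have h2 : 5 * e1 ≤ 17 / 32 * r ^ 2 := by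
      have h3 : t * (5 * e1) ≤ t * (17 / 32 * r ^ 2) := by linarith
      exact le_of_mul_le_mul_left h3 ht0
    have hr0 : 0 ≤ r := by
      rw [hr]
      have : e1 ≤ 1 / 128 := by unfold e1; norm_num
      linarith
    have hr1 : r ≤ 1 / 128 + 3 * e1 := by
      rw [hr]
      linarith
    have hr2 : r ^ 2 ≤ (1 / 128 + 3 * e1) ^ 2 := pow_le_pow_left₀ hr0 hr1 2
    have : 17 / 32 * (1 / 128 + 3 * e1) ^ 2 < 5 * e1 := by
      unfold e1
      norm_num
    linarith
  · have h2 : F A c (μ + s) < F A c μ + (ρ + e1) * s := by linarith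
    have h3 : s * r = (ρ + e1) * s + s * e1 := by
      rw [hr]
      ring
    have h4 : 0 < s * e1 := by positivity
    have h5 : 0 < t * (5 * e1) := by positivity
    nlinarith

end

end Vale.Agent.P171
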