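import Vale.Agent.P171.Geom

open MeasureTheory Set Filter Topology
open scoped ENNReal

namespace Vale.Agent.P171

noncomputable section

/-- Double sum of a kernel over a configuration (diagonal included). -/
def S (K : E → E → ℝ) (m : Multiset E) : ℝ := (m.map fun x => (m.map fun y => K x y).sum).sum

theorem exists_conf (m : Multiset E) : ∃ n, ∃ x : Fin n → E, m = conf x := by
  induction m using Quotient.inductionOn with
  | h l =>
    refine ⟨l.length, l.get, ?_⟩
    unfold conf
    have : (Finset.univ : Finset (Fin l.length)).val = ((List.finRange l.length : List _) :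
      Multiset (Fin l.length)) := rfl
    rw [this, Multiset.map_coe]
    simp

theorem S_conf {ι : Type*} [Fintype ι] (K : E → E → ℝ) (x : ι → E) :
    S K (conf x) = ∑ i, ∑ j, K (x i) (x j) := by
  unfold S conf
  simp only [Multiset.map_map]
  rfl

theorem S_finset {ι : Type*} (K : E → E → ℝ) (P : Finset ι) (x : ι → E) :
    S K (P.val.map x) = ∑ i ∈ P, ∑ j ∈ P, K (x i) (x j) := by
  unfold S
  simp only [Multiset.map_map]
  rfl

theorem S_mono_mem {K K' : E → E → ℝ} {m : Multiset E} (h : ∀ x ∈ m, ∀ y ∈ m, K x y ≤ K' x y) :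
    S K m ≤ S K' m := by
  unfold S
  apply Multiset.sum_map_le_sum_map
  intro x hx
  apply Multiset.sum_map_le_sum_map
  intro y hy
  exact h x hx y hy

theorem S_mono {K K' : E → E → ℝ} {m : Multiset E} (h : ∀ x y, K x y ≤ K' x y) :
    S K m ≤ S K' m := S_mono_mem fun x _ y _ => h x y

theorem S_congr_mem {K K' : E → E → ℝ} {m : Multiset E} (h : ∀ x ∈ m, ∀ y ∈ m, K x y = K' x y) :
    S K m = S K' m :=
  le_antisymm (S_mono_mem fun x hx y hy => (h x hx y hy).le)
    (S_mono_mem fun x hx y hy => (h x hx y hy).ge)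

theorem S_zero (m : Multiset E) : S (fun _ _ => 0) m = 0 := by
  unfold S
  simp

theorem S_nonneg {K : E → E → ℝ} {m : Multiset E} (h : ∀ x y, 0 ≤ K x y) : 0 ≤ S K m := by
  rw [← S_zero m]
  exact S_mono h

theorem S_add (K K' : E → E → ℝ) (m : Multiset E) :
    S (fun x y => K x y + K' x y) m = S K m + S K' m := by
  unfold S
  simp only [Multiset.sum_map_add]

theorem S_const_mul (a : ℝ) (K : E → E → ℝ) (m : Multiset E) :
    S (fun x y => a * K x y) m = a * S K m := by
  unfold S
  simp only [Multiset.sum_map_mul_left]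

theorem S_sub (K K' : E → E → ℝ) (m : Multiset E) :
    S (fun x y => K x y - K' x y) m = S K m - S K' m := by
  have h1 : S (fun x y => K x y - K' x y) m = S (fun x y => K x y + (-1) * K' x y) m := by
    congr 1
    ext x y
    ring
  rw [h1, S_add, S_const_mul]
  ring

theorem S_sum {ι : Type*} (T : Finset ι) (K : ι → E → E → ℝ) (m : Multiset E) :
    S (fun x y => ∑ k ∈ T, K k x y) m = ∑ k ∈ T, S (K k) m := by
  classical
  induction T using Finset.induction_on with
  | empty => simp [S_zero]
  | insert a T ha ih =>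
    simp only [Finset.sum_insert ha]
    rw [S_add, ih]

theorem S_tsum (c : ℕ → ℝ) (K : ℕ → E → E → ℝ) (m : Multiset E)
    (hs : ∀ x y, Summable fun k => c k * K k x y) :
    S (fun x y => ∑' k, c k * K k x y) m = ∑' k, c k * S (K k) m := by
  obtain ⟨n, x, rfl⟩ := exists_conf m
  rw [S_conf]
  simp_rw [S_conf, Finset.mul_sum]
  rw [Summable.tsum_finsetSum]
  · refine Finset.sum_congr rfl fun i _ => ?_
    rw [Summable.tsum_finsetSum]
    intro j _
    exact hs _ _
  · intro i _
    exact summable_sum fun j _ => hs _ _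

theorem summable_S (c : ℕ → ℝ) (K : ℕ → E → E → ℝ) (m : Multiset E)
    (hs : ∀ x y, Summable fun k => c k * K k x y) : Summable fun k => c k * S (K k) m := by
  obtain ⟨n, x, rfl⟩ := exists_conf m
  simp_rw [S_conf, Finset.mul_sum]
  exact summable_sum fun i _ => summable_sum fun j _ => hs _ _

theorem measurable_S {K : E → E → ℝ} (hK : Measurable (Function.uncurry K)) :
    Measurable (S K) := by
  apply measurable_of_conf
  intro n
  simp_rw [S_conf]
  refine Finset.measurable_sum _ fun i _ => Finset.measurable_sum _ fun j _ => ?_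
  have h : Measurable (fun x : Fin n → E => (x i, x j)) :=
    (measurable_pi_apply i).prodMk (measurable_pi_apply j)
  exact hK.comp h

theorem S_map (K : E → E → ℝ) (f : E → E) (m : Multiset E) :
    S K (m.map f) = S (fun x y => K (f x) (f y)) m := by
  unfold S
  simp only [Multiset.map_map]
  rfl

/-- Block index: blocks of side `l`, shifted by `s` in all coordinates. -/
def blk (l s : ℕ) (x : E) : Fin 3 → ℤ := fun i => (⌊x i⌋ - (s : ℤ)) / (l : ℤ)

/-- Kernel of being in the same class. -/
def same (q : E → Fin 3 → ℤ) (x y : E) : ℝ := if q x = q y then 1 else 0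

/-- Sum of squares of the numbers of particles in unit cells. -/
def B (m : Multiset E) : ℝ := S (same (blk 1 0)) m

theorem shift_le {ι : Type*} [Fintype ι] (q : ι → Fin 3 → ℤ) (D : Fin 3 → ℤ) :
    ∑ i, ∑ j, (if q j = q i + D then (1 : ℝ) else 0) ≤
      ∑ i, ∑ j, (if q i = q j then (1 : ℝ) else 0) := by
  classical
  let N : (Fin 3 → ℤ) → ℝ := fun a => ∑ j, (if q j = a then (1 : ℝ) else 0)
  let T : Finset (Fin 3 → ℤ) := Finset.univ.image q
  have hN0 : ∀ a, 0 ≤ N a := fun a => Finset.sum_nonneg fun j _ => by split_ifs <;> norm_num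
  have hN1 : ∀ a, a ∉ T → N a = 0 := by
    intro a ha
    apply Finset.sum_eq_zero
    intro j _
    rw [if_neg]
    intro h
    exact ha (Finset.mem_image.2 ⟨j, Finset.mem_univ _, h⟩)
  have hcard : ∀ a, ((Finset.univ.filter (fun i => q i = a)).card : ℝ) = N a := by
    intro a
    simp [N]
  have h1 : ∀ g : (Fin 3 → ℤ) → ℝ, ∑ i, g (q i) = ∑ a ∈ T, N a * g a := by
    intro g
    rw [Finset.sum_comp g q]
    refine Finset.sum_congr rfl fun a _ => ?_
    rw [nsmul_eq_mul, hcard]
  have h2 : ∑ i, ∑ j, (if q j = q i + D then (1 : ℝ) else 0) = ∑ a ∈ T, N a * N (a + D) :=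
    h1 (fun a => N (a + D))
  have h3 : ∑ i, ∑ j, (if q i = q j then (1 : ℝ) else 0) = ∑ a ∈ T, N a * N a := by
    rw [← h1 N]
    refine Finset.sum_congr rfl fun i _ => Finset.sum_congr rfl fun j _ => ?_
    simp only [eq_comm]
  rw [h2, h3]
  have h4 : ∑ a ∈ T, N (a + D) * N (a + D) ≤ ∑ a ∈ T, N a * N a := by
    have h5 : ∑ a ∈ T, N (a + D) * N (a + D) = ∑ b ∈ T.image (· + D), N b * N b := by
      have := Finset.sum_image (s := T) (g := fun a => a + D) (f := fun b => N b * N b)
        (fun a _ b _ h => add_right_cancel h)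
      exact this.symm
    rw [h5]
    have h6 : ∑ b ∈ T.image (· + D), N b * N b =
        ∑ b ∈ (T.image (· + D)).filter (· ∈ T), N b * N b := by
      rw [Finset.sum_filter]
      refine Finset.sum_congr rfl fun b _ => ?_
      split_ifs with h
      · rfl
      · rw [hN1 b h]
        ring
    rw [h6]
    apply Finset.sum_le_sum_of_subset_of_nonneg
    · intro b hb
      exact (Finset.mem_filter.1 hb).2
    · intro b _ _
      exact mul_self_nonneg _
  have h7 : ∑ a ∈ T, N a * N (a + D) ≤
      (∑ a ∈ T, N a * N a + ∑ a ∈ T, N (a + D) * N (a + D)) / 2 := by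
    rw [← Finset.sum_add_distrib, Finset.sum_div]
    refine Finset.sum_le_sum fun a _ => ?_
    nlinarith [sq_nonneg (N a - N (a + D))]
  linarith

theorem S_shift_le (q : E → Fin 3 → ℤ) (D : Fin 3 → ℤ) (m : Multiset E) :
    S (fun x y => if q y = q x + D then 1 else 0) m ≤ S (same q) m := by
  obtain ⟨n, x, rfl⟩ := exists_conf m
  rw [S_conf, S_conf]
  exact shift_le (fun i => q (x i)) D

theorem blk_spec {l : ℕ} (hl : 0 < l) (s : ℕ) (x : E) (i : Fin 3) :
    (l : ℝ) * (blk l s x i : ℝ) + s ≤ x i ∧ x i < (l : ℝ) * (blk l s x i : ℝ) + s + l := by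
  have hl' : (0 : ℤ) < l := by exact_mod_cast hl
  have h1 : (l : ℤ) * blk l s x i ≤ ⌊x i⌋ - s := Int.mul_ediv_self_le hl'.ne'
  have h2 : ⌊x i⌋ - s < (l : ℤ) * blk l s x i + l := Int.lt_mul_ediv_self_add hl'
  have h3 := Int.floor_le (x i)
  have h4 := Int.lt_floor_add_one (x i)
  have h5 : (l : ℤ) * blk l s x i + s ≤ ⌊x i⌋ := by omega
  have h6 : ⌊x i⌋ + 1 ≤ (l : ℤ) * blk l s x i + s + l := by omega
  have h5' : (l : ℝ) * (blk l s x i : ℝ) + s ≤ (⌊x i⌋ : ℝ) := by exact_mod_cast h5
  have h6' : (⌊x i⌋ : ℝ) + 1 ≤ (l : ℝ) * (blk l s x i : ℝ) + s + l := by exact_mod_cast h6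
  constructor <;> linarith

theorem blk_eq_iff {l : ℕ} (hl : 0 < l) (s : ℕ) (x : E) (p : Fin 3 → ℤ) :
    blk l s x = p ↔ x ∈ box (fun i => (l : ℝ) * p i + s) l := by
  constructor
  · rintro rfl i
    exact blk_spec hl s x i
  · intro h
    ext i
    have h1 := blk_spec hl s x i
    have h2 := h i
    simp only at h2
    have hl' : (0 : ℝ) < l := by exact_mod_cast hl
    have h3 : (l : ℝ) * (blk l s x i : ℝ) < l * (p i + 1) := by linarith [h1.1, h2.2]
    have h4 : (l : ℝ) * (p i : ℝ) < l * (blk l s x i + 1) := by linarith [h2.1, h1.2]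
    have h5 := lt_of_mul_lt_mul_left h3 hl'.le
    have h6 := lt_of_mul_lt_mul_left h4 hl'.le
    have h7 : blk l s x i < p i + 1 := by exact_mod_cast h5
    have h8 : p i < blk l s x i + 1 := by exact_mod_cast h6
    omega

theorem blk_dist {l : ℕ} (hl : 0 < l) (s : ℕ) (x y : E) :
    ‖vec l (blk l s y - blk l s x)‖ ≤ dist x y + 2 * l := by
  have hl' : (0 : ℝ) < l := by exact_mod_cast hl
  have h1 : ‖vec l (blk l s y - blk l s x) - (y - x)‖ ≤ 2 * l := by
    apply norm_le_two_mul hl'.le
    intro i
    have hx := blk_spec hl s x i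
    have hy := blk_spec hl s y i
    rw [PiLp.sub_apply, vec_apply, PiLp.sub_apply, Pi.sub_apply, abs_le]
    push_cast
    constructor <;> nlinarith [hx.1, hx.2, hy.1, hy.2]
  calc ‖vec l (blk l s y - blk l s x)‖
      = ‖(y - x) + (vec l (blk l s y - blk l s x) - (y - x))‖ := by rw [add_sub_cancel]
    _ ≤ ‖y - x‖ + ‖vec l (blk l s y - blk l s x) - (y - x)‖ := norm_add_le _ _
    _ ≤ dist x y + 2 * l := by
      rw [dist_comm, dist_eq_norm]
      exact add_le_add le_rfl h1

theorem S_ball_le {l : ℕ} (hl : 0 < l) (s : ℕ) {R : ℝ} (hR : 0 ≤ R) (m : Multiset E) :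
    (l : ℝ) ^ 3 * S (fun x y => if dist x y ≤ R then 1 else 0) m ≤
      vb * (R + 5 * l) ^ 3 * S (same (blk l s)) m := by
  have hl' : (0 : ℝ) < l := by exact_mod_cast hl
  obtain ⟨T, hT⟩ := exists_T (R + 2 * l) hl'
  have h1 := count_upper hl' (r := R + 2 * l) (by positivity) T (fun D hD => (hT D).1 hD)
  have h2 : S (fun x y => if dist x y ≤ R then 1 else 0) m ≤ T.card * S (same (blk l s)) m := by
    calc S (fun x y => if dist x y ≤ R then 1 else 0) m
        ≤ S (fun x y => ∑ D ∈ T, if blk l s y = blk l s x + D then 1 else 0) m := by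
          apply S_mono
          intro x y
          split_ifs with h
          · have hD : (blk l s y - blk l s x) ∈ T := by
              rw [hT]
              exact (blk_dist hl s x y).trans (by linarith)
            calc (1 : ℝ) = if blk l s y = blk l s x + (blk l s y - blk l s x) then 1 else 0 := by
                  rw [if_pos (by abel)]
              _ ≤ _ := Finset.single_le_sum
                  (f := fun D => if blk l s y = blk l s x + D then (1 : ℝ) else 0)
                  (fun D _ => by split_ifs <;> norm_num) hD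
          · exact Finset.sum_nonneg fun D _ => by split_ifs <;> norm_num
      _ = ∑ D ∈ T, S (fun x y => if blk l s y = blk l s x + D then 1 else 0) m :=
          S_sum T (fun D x y => if blk l s y = blk l s x + D then 1 else 0) m
      _ ≤ ∑ _D ∈ T, S (same (blk l s)) m := Finset.sum_le_sum fun D _ => S_shift_le _ _ _
      _ = T.card * S (same (blk l s)) m := by simp
  have h3 : 0 ≤ S (same (blk l s)) m := S_nonneg fun x y => by
    unfold same
    split_ifs <;> norm_num
  calc (l : ℝ) ^ 3 * S (fun x y => if dist x y ≤ R then 1 else 0) m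
      ≤ (l : ℝ) ^ 3 * (T.card * S (same (blk l s)) m) := by gcongr
    _ = ((l : ℝ) ^ 3 * T.card) * S (same (blk l s)) m := by ring
    _ ≤ (vb * (R + 2 * l + 3 * l) ^ 3) * S (same (blk l s)) m := by gcongr
    _ = vb * (R + 5 * l) ^ 3 * S (same (blk l s)) m := by ring

end

end Vale.Agent.P171
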