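import Vale.Agent.P171.Ekeland

open MeasureTheory Set Filter Topology
open scoped ENNReal

namespace Vale.Agent.P171

noncomputable section

/-- The space of absolutely summable sequences. -/
abbrev L1 := lp (fun _ : ℕ => ℝ) 1

theorem L1_summable (c : L1) : Summable fun k => |c k| := by
  have h := (lp.memℓp c).summable (by simp)
  simpa using h

theorem L1_norm (c : L1) : ‖c‖ = ∑' k, |c k| := by
  have h := lp.norm_eq_tsum_rpow (p := 1) (by simp) c
  simpa using h

theorem L1_summable' (c : L1) : Summable fun k => c k := (L1_summable c).of_abs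

/-- upper bound on the coefficients -/
def MM : ℝ := 131073

/-- repulsion strength -/
def AA : ℝ := 262150

/-- parameter space -/
def XX : Set (L1 × ℝ) := {w | (∀ k, 0 ≤ w.1 k) ∧ ‖w.1‖ ≤ MM}

theorem XX_closed : IsClosed XX := by
  have h1 : XX = (⋂ k, {w : L1 × ℝ | 0 ≤ w.1 k}) ∩ {w : L1 × ℝ | ‖w.1‖ ≤ MM} := by
    ext w
    simp [XX]
  rw [h1]
  refine IsClosed.inter (isClosed_iInter fun k => ?_) ?_
  · have hk : Continuous fun w : L1 × ℝ => w.1 k := by
      have h2 : Continuous fun c : L1 => (c k : ℝ) := by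
        have h3 : LipschitzWith 1 fun c : L1 => (c k : ℝ) := by
          apply LipschitzWith.of_dist_le_mul
          intro c d
          rw [NNReal.coe_one, one_mul, dist_eq_norm, dist_eq_norm]
          exact lp.norm_apply_le_norm (p := 1) (by simp) (c - d) k
        exact h3.continuous
      exact h2.comp continuous_fst
    exact isClosed_le continuous_const hk
  · exact isClosed_le (continuous_fst.norm) continuous_const

theorem XX_norm {w : L1 × ℝ} (hw : w ∈ XX) : ‖w.1‖ = ∑' k, w.1 k := by
  rw [L1_norm]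
  congr 1
  ext k
  exact abs_of_nonneg (hw.1 k)

theorem XX_adm {w : L1 × ℝ} (hw : w ∈ XX) : Adm AA (fun k => w.1 k) := by
  refine ⟨hw.1, L1_summable' _, ?_⟩
  have h1 := XX_norm hw
  have h2 := hw.2
  rw [h1] at h2
  unfold AA
  unfold MM at h2
  linarith

theorem continuous_H (m : Multiset E) :
    Continuous fun w : L1 × ℝ => H AA (fun k => w.1 k) m := by
  have h1 : ∀ w : L1 × ℝ, H AA (fun k => w.1 k) m =
      (AA * S (fun x y => if dist x y ≤ 2 then 1 else 0) m -
        ∑' k, w.1 k * S (fun x y => kap k (dist x y)) m) / 2 := by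
    intro w
    unfold H
    rw [S_phi, S_psi (L1_summable' w.1)]
  simp_rw [h1]
  have h2 : Continuous fun c : L1 => ∑' k, c k * S (fun x y => kap k (dist x y)) m := by
    have h3 : LipschitzWith (Real.toNNReal (2 * B m))
        fun c : L1 => ∑' k, c k * S (fun x y => kap k (dist x y)) m := by
      apply LipschitzWith.of_dist_le_mul
      intro c d
      rw [Real.coe_toNNReal _ (by linarith [B_nonneg m]), dist_eq_norm c d, L1_norm,
        Real.dist_eq, ← (summable_S_kap (L1_summable' c) m).tsum_sub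
          (summable_S_kap (L1_summable' d) m), ← tsum_mul_left]
      have h5 : ∀ k, |c k * S (fun x y => kap k (dist x y)) m -
          d k * S (fun x y => kap k (dist x y)) m| ≤ 2 * B m * |(c - d) k| := by
        intro k
        rw [← sub_mul, abs_mul, abs_of_nonneg (S_kap_nonneg k m), mul_comm]
        exact mul_le_mul_of_nonneg_right (S_kap_le_B k m) (abs_nonneg _)
      have h6 : Summable fun k => 2 * B m * |(c - d) k| := (L1_summable (c - d)).mul_left _
      have h7 : Summable fun k => |c k * S (fun x y => kap k (dist x y)) m -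
          d k * S (fun x y => kap k (dist x y)) m| :=
        Summable.of_nonneg_of_le (fun k => abs_nonneg _) h5 h6
      have h8 : ‖∑' k, (c k * S (fun x y => kap k (dist x y)) m -
          d k * S (fun x y => kap k (dist x y)) m)‖ ≤ ∑' k, ‖c k * S (fun x y => kap k (dist x y)) m -
          d k * S (fun x y => kap k (dist x y)) m‖ := norm_tsum_le_tsum_norm h7
      simp only [Real.norm_eq_abs] at h8
      exact h8.trans (h7.tsum_le_tsum h5 h6)
    exact h3.continuous
  exact ((continuous_const.sub (h2.comp continuous_fst)).div_const 2)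

theorem lsc_Xi (l : ℕ) :
    LowerSemicontinuous fun w : XX => Xi AA (fun k => w.1.1 k) w.1.2 l := by
  intro w
  refine lowerSemicontinuousAt_iff_le_liminf.2 ?_
  unfold Xi
  have h1 : ∀ m : Multiset E, W AA (fun k => w.1.1 k) w.1.2 m =
      liminf (fun w' : XX => W AA (fun k => w'.1.1 k) w'.1.2 m) (𝓝 w) := by
    intro m
    symm
    apply Tendsto.liminf_eq
    have h2 : Continuous fun w' : XX => W AA (fun k => w'.1.1 k) w'.1.2 m := by
      unfold W
      refine continuous_ew.comp (Continuous.sub ?_ ((continuous_H m).comp continuous_subtype_val))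
      exact (continuous_snd.comp continuous_subtype_val).mul_const _
    exact h2.continuousAt
  simp_rw [h1]
  exact lintegral_liminf_le fun w' => measurable_W (XX_adm w'.2) _

theorem lsc_lg (l : ℕ) :
    LowerSemicontinuous fun w : XX => lg (Xi AA (fun k => w.1.1 k) w.1.2 l) := by
  intro w y hy
  have h1 : ew y < Xi AA (fun k => w.1.1 k) w.1.2 l := by
    rw [← ew_lg (lt_of_lt_of_le one_pos (one_le_Xi (XX_adm w.2) _ _)).ne'
      (Xi_ne_top (XX_adm w.2) _ _)]
    rw [lt_iff_not_ge, ew_le_iff, not_le]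
    exact hy
  filter_upwards [lsc_Xi l w _ h1] with w' hw'
  by_contra hcon
  push Not at hcon
  have h2 := le_ew_lg (Xi_ne_top (XX_adm w'.2) w'.1.2 l)
  have h3 := ew_mono hcon
  exact absurd hw' (not_lt.2 (h2.trans h3))

theorem lsc_F : LowerSemicontinuous fun w : XX => F AA (fun k => w.1.1 k) w.1.2 := by
  unfold F
  refine lowerSemicontinuous_ciSup (fun w => F_bdd (XX_adm w.2) _) fun l => ?_
  intro w y hy
  have h0 : (0 : ℝ) < ((l : ℝ) + 3) ^ 3 := by positivity
  have hy' : y < lg (Xi AA (fun k => w.1.1 k) w.1.2 l) / ((l : ℝ) + 3) ^ 3 := hy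
  have h1 : y * ((l : ℝ) + 3) ^ 3 < lg (Xi AA (fun k => w.1.1 k) w.1.2 l) :=
    (lt_div_iff₀ h0).1 hy'
  filter_upwards [lsc_lg l w _ h1] with w' hw'
  exact (lt_div_iff₀ h0).2 hw'

/-- The functional to which the variational principle is applied. -/
def fun1 (w : XX) : ℝ :=
  F AA (fun k => w.1.1 k) w.1.2 + (-(1 / 128 * (w.1.2 - AA / 2)) + -(3 / 65536 * ‖w.1.1‖))

theorem lsc_fun1 : LowerSemicontinuous fun1 := by
  unfold fun1
  refine lsc_F.add (Continuous.lowerSemicontinuous ?_)
  have h1 : Continuous fun w : XX => w.1.2 := continuous_snd.comp continuous_subtype_val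
  have h2 : Continuous fun w : XX => w.1.1 := continuous_fst.comp continuous_subtype_val
  fun_prop

theorem fun1_nonneg (w : XX) : 0 ≤ fun1 w := by
  unfold fun1
  have h1 := F_nonneg (XX_adm w.2) w.1.2
  have h2 := crystal_F (XX_adm w.2) w.1.2
  rw [XX_norm w.2]
  linarith

/-- starting point -/
def w0 : XX := ⟨(0, AA / 2), by
  refine ⟨fun k => le_rfl, ?_⟩
  simp only [norm_zero]
  unfold MM
  norm_num⟩

theorem psi_zero (r : ℝ) : psi (fun _ => 0) r = 0 := by
  unfold psi
  simp

theorem H_zero_c (m : Multiset E) : AA / 2 * m.card ≤ H AA (fun _ => 0) m := by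
  unfold H
  rw [S_phi]
  have h1 : S (fun x y => psi (fun _ => 0) (dist x y)) m = 0 := by
    simp_rw [psi_zero]
    exact S_zero m
  rw [h1]
  have h2 : (m.card : ℝ) ≤ S (fun x y => if dist x y ≤ 2 then 1 else 0) m := by
    obtain ⟨n, x, rfl⟩ := exists_conf m
    rw [S_conf]
    have h3 : ((conf x).card : ℝ) = ∑ _i : Fin n, (1 : ℝ) := by
      simp [conf]
    rw [h3]
    refine Finset.sum_le_sum fun i _ => ?_
    calc (1 : ℝ) = if dist (x i) (x i) ≤ 2 then 1 else 0 := by simp
      _ ≤ _ := Finset.single_le_sum (f := fun j => if dist (x i) (x j) ≤ 2 then (1 : ℝ) else 0)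
          (fun j _ => by split_ifs <;> norm_num) (Finset.mem_univ i)
  have hA : (0 : ℝ) ≤ AA := by unfold AA; norm_num
  nlinarith

theorem fun1_w0 : fun1 w0 ≤ 1 := by
  unfold fun1
  have h0 : (fun k => w0.1.1 k) = fun _ : ℕ => (0 : ℝ) := rfl
  have h1 : w0.1.2 = AA / 2 := rfl
  have h2 : w0.1.1 = 0 := rfl
  rw [h1, h2, norm_zero]
  have h3 : F AA (fun k => (0 : L1) k) (AA / 2) ≤ 1 := by
    have hadm : Adm AA (fun k => (0 : L1) k) := XX_adm w0.2
    apply ciSup_le
    intro l
    rw [div_le_iff₀ (by positivity)]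
    have h4 : lg (Xi AA (fun k => (0 : L1) k) (AA / 2) l) ≤ Real.exp 0 * (l : ℝ) ^ 3 := by
      apply lg_le (one_le_Xi hadm _ _)
      apply lintegral_le_free
      intro m
      apply ew_mono
      have := H_zero_c m
      have h5 : H AA (fun k => (0 : L1) k) m = H AA (fun _ => 0) m := rfl
      rw [h5]
      linarith
    refine h4.trans ?_
    rw [Real.exp_zero]
    gcongr
    linarith
  linarith

/-- Existence of a tangent-like parameter. -/
theorem exists_c : ∃ (c : ℕ → ℝ) (μ : ℝ), Adm AA c ∧
    ¬ DifferentiableAt ℝ (fun μ => F AA c μ) μ := by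
  have he : (0 : ℝ) < e1 := by unfold e1; norm_num
  have : CompleteSpace XX := XX_closed.completeSpace_coe
  obtain ⟨z, hz1, hz2⟩ := ekeland fun1 lsc_fun1 fun1_nonneg w0 he
  refine ⟨fun k => z.1.1 k, z.1.2, XX_adm z.2, ?_⟩
  have hnorm : ‖z.1.1‖ ≤ 131072 := by
    have h1 : e1 * dist w0 z ≤ 1 := by
      have := fun1_nonneg z
      linarith [fun1_w0]
    have h2 : ‖z.1.1‖ ≤ dist w0 z := by
      have h3 : dist w0.1.1 z.1.1 ≤ dist w0 z := by
        rw [Subtype.dist_eq, Prod.dist_eq]
        exact le_max_left _ _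
      have h4 : w0.1.1 = 0 := rfl
      rw [h4, dist_zero_left] at h3
      exact h3
    unfold e1 at h1
    linarith
  have hbump : ∀ k t, bump (fun k => z.1.1 k) k t =
      fun j => (z.1.1 + lp.single (E := fun _ : ℕ => ℝ) 1 k t : L1) j := by
    intro k t
    ext j
    unfold bump
    rw [lp.coeFn_add, Pi.add_apply, lp.single_apply]
    congr 1
    by_cases h : j = k
    · subst h
      simp
    · simp [h, Pi.single_apply]
  have hsn : ∀ k t, 0 < t → ‖(lp.single (E := fun _ : ℕ => ℝ) 1 k t : L1)‖ = t := by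
    intro k t ht
    rw [lp.norm_single (by simp)]
    rw [Real.norm_eq_abs, abs_of_pos ht]
  have hmem : ∀ k t, 0 < t → t ≤ 1 →
      ((z.1.1 + lp.single (E := fun _ : ℕ => ℝ) 1 k t : L1), z.1.2) ∈ XX := by
    intro k t ht ht1
    refine ⟨fun j => ?_, ?_⟩
    · have h1 := congrFun (hbump k t) j
      simp only at h1
      rw [← h1]
      unfold bump
      have h2 := z.2.1 j
      split_ifs <;> linarith
    · refine (norm_add_le _ _).trans ?_
      rw [hsn k t ht]
      unfold MM
      linarith
  apply not_differentiable (XX_adm z.2)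
  · intro k t ht ht1
    rw [hbump]
    exact XX_adm (hmem k t ht ht1)
  · intro k t ht ht1
    have h1 := hz2 ⟨_, hmem k t ht ht1⟩
    have h2 : dist z ⟨_, hmem k t ht ht1⟩ = t := by
      rw [Subtype.dist_eq, Prod.dist_eq]
      simp only [dist_self]
      rw [dist_eq_norm, sub_add_cancel_left, norm_neg, hsn k t ht]
      exact max_eq_left ht.le
    rw [h2] at h1
    unfold fun1 at h1
    have h3 : ‖(z.1.1 + lp.single (E := fun _ : ℕ => ℝ) 1 k t : L1)‖ = ‖z.1.1‖ + t := by
      have h4 := XX_norm (hmem k t ht ht1)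
      simp only at h4
      rw [h4, XX_norm z.2]
      have h5 := hbump k t
      have h6 : ∑' j, (z.1.1 + lp.single (E := fun _ : ℕ => ℝ) 1 k t : L1) j =
          ∑' j, bump (fun k => z.1.1 k) k t j := by rw [h5]
      rw [h6]
      unfold bump
      rw [(L1_summable' z.1.1).tsum_add (hasSum_ite_eq k t).summable, tsum_ite_eq]
    simp only at h1
    rw [h3, ← hbump] at h1
    unfold e1 at *
    linarith
  · intro μ'
    have hm : ((z.1.1, μ') : L1 × ℝ) ∈ XX := ⟨z.2.1, z.2.2⟩
    have h1 := hz2 ⟨_, hm⟩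
    have h2 : dist z ⟨_, hm⟩ = |μ' - z.1.2| := by
      rw [Subtype.dist_eq, Prod.dist_eq]
      simp only [dist_self]
      rw [Real.dist_eq, abs_sub_comm]
      exact max_eq_right (abs_nonneg _)
    rw [h2] at h1
    unfold fun1 at h1
    simp only at h1
    linarith

end

end Vale.Agent.P171
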