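import Vale.Agent.P171.Exist
import Vale.Agent.P171.Defs

open MeasureTheory Set Filter Topology
open scoped ENNReal

namespace Vale.Agent.P171

noncomputable section

variable {A : ℝ} {c : ℕ → ℝ}

theorem energy_eq (φ : ℝ → ℝ) {N : ℕ} (x : Fin N → E) :
    energy φ x = S (fun x y => φ (dist x y)) (conf x) / 2 - N * φ 0 / 2 := by
  rw [S_conf]
  unfold energy
  have h1 : ∀ i j : Fin N, φ (dist (x i) (x j)) =
      (if i < j then φ (dist (x i) (x j)) else 0) + (if j < i then φ (dist (x j) (x i)) else 0) +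
      (if i = j then φ 0 else 0) := by
    intro i j
    rcases lt_trichotomy i j with h | h | h
    · simp [h, h.ne, not_lt.2 h.le]
    · subst h
      simp
    · simp [h, h.ne', not_lt.2 h.le, dist_comm]
  have h2 : ∑ i : Fin N, ∑ j : Fin N, φ (dist (x i) (x j)) =
      ∑ i : Fin N, ∑ j : Fin N, (if i < j then φ (dist (x i) (x j)) else 0) +
      ∑ i : Fin N, ∑ j : Fin N, (if j < i then φ (dist (x j) (x i)) else 0) +
      ∑ i : Fin N, ∑ j : Fin N, (if i = j then φ 0 else 0) := by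
    rw [← Finset.sum_add_distrib, ← Finset.sum_add_distrib]
    refine Finset.sum_congr rfl fun i _ => ?_
    rw [← Finset.sum_add_distrib, ← Finset.sum_add_distrib]
    exact Finset.sum_congr rfl fun j _ => h1 i j
  have h3 : ∑ i : Fin N, ∑ j : Fin N, (if j < i then φ (dist (x j) (x i)) else 0) =
      ∑ i : Fin N, ∑ j : Fin N, (if i < j then φ (dist (x i) (x j)) else 0) := by
    rw [Finset.sum_comm]
  have h4 : ∑ i : Fin N, ∑ j : Fin N, (if i = j then φ 0 else 0) = N * φ 0 := by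
    simp
  rw [h2, h3, h4]
  simp_rw [Finset.sum_filter]
  ring

/-- the closed cube -/
def cbox (L : ℝ) : Set E := {x | ∀ j, x j ∈ Set.Icc (0 : ℝ) L}

theorem measurableSet_cbox (L : ℝ) : MeasurableSet (cbox L) := by
  have : cbox L = ⋂ i : Fin 3, ((fun x : E => x i) ⁻¹' Icc 0 L) := by
    ext x
    simp [cbox]
  rw [this]
  exact MeasurableSet.iInter fun i => (measurable_coord i) measurableSet_Icc

theorem grandZ_eq (h : Adm A c) {z : ℝ} (hz : 0 < z) (L : ℝ) :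
    grandZ (phi A c) 1 z L =
      ∫⁻ m in In (cbox L), W A c (Real.log z + phi A c 0 / 2) m ∂Pm := by
  rw [lintegral_In (measurableSet_cbox L) (measurable_W h _)]
  unfold grandZ canonicalZ I
  congr 1
  ext N
  rw [← mul_assoc, mul_comm (ENNReal.ofReal (z ^ N)), mul_assoc]
  congr 1
  rw [← lintegral_const_mul']
  · congr 1
    ext x
    unfold W H ew
    rw [energy_eq, ← ENNReal.ofReal_mul (by positivity)]
    congr 1
    have h1 : (conf x).card = N := by simp [conf]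
    have h2 : z ^ N = Real.exp (Real.log z * N) := by
      rw [Real.exp_mul, Real.exp_log hz, Real.rpow_natCast]
    rw [h1, h2, ← Real.exp_add]
    congr 1
    ring
  · exact ENNReal.ofReal_ne_top

theorem box_sub_cbox {L : ℝ} (hL : 0 ≤ L) : box (fun _ => 0) (⌊L⌋₊ : ℝ) ⊆ cbox L := by
  intro x hx j
  have h1 := hx j
  have h2 := Nat.floor_le hL
  exact ⟨h1.1, by linarith [h1.2]⟩

theorem cbox_sub_box (L : ℝ) : cbox L ⊆ box (fun _ => 0) ((⌊L⌋₊ + 1 : ℕ) : ℝ) := by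
  intro x hx j
  have h1 := hx j
  have h2 := Nat.lt_floor_add_one L
  push_cast
  exact ⟨h1.1, by linarith [h1.2]⟩

theorem grandZ_upper (h : Adm A c) {z : ℝ} (hz : 0 < z) (L : ℝ) :
    grandZ (phi A c) 1 z L ≤ Xi A c (Real.log z + phi A c 0 / 2) (⌊L⌋₊ + 1) := by
  rw [grandZ_eq h hz]
  exact lintegral_mono_set (In_mono (cbox_sub_box L))

theorem grandZ_lower (h : Adm A c) {z : ℝ} (hz : 0 < z) {L : ℝ} (hL : 0 ≤ L) :
    Xi A c (Real.log z + phi A c 0 / 2) ⌊L⌋₊ ≤ grandZ (phi A c) 1 z L := by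
  rw [grandZ_eq h hz]
  exact lintegral_mono_set (In_mono (box_sub_cbox hL))

theorem isPressure (h : Adm A c) :
    IsPressure (phi A c) 1 (fun z => F A c (Real.log z + phi A c 0 / 2)) := by
  intro z hz
  set μ := Real.log z + phi A c 0 / 2 with hμ
  refine ⟨fun L => ne_top_of_le_ne_top (Xi_ne_top h μ _) (grandZ_upper h hz L), ?_⟩
  have hF := tendsto_F h μ
  have hfl : Tendsto (fun L : ℝ => ⌊L⌋₊) atTop atTop := tendsto_nat_floor_atTop
  have hratio : Tendsto (fun L : ℝ => (⌊L⌋₊ : ℝ) / L) atTop (𝓝 1) :=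
    tendsto_nat_floor_div_atTop
  have hinv : Tendsto (fun L : ℝ => L⁻¹) atTop (𝓝 0) := tendsto_inv_atTop_zero
  have hratio1 : Tendsto (fun L : ℝ => ((⌊L⌋₊ + 1 : ℕ) : ℝ) / L) atTop (𝓝 1) := by
    have h1 := hratio.add hinv
    rw [add_zero] at h1
    refine h1.congr fun L => ?_
    push_cast
    ring
  have hlow : Tendsto (fun L : ℝ => lg (Xi A c μ ⌊L⌋₊) / (⌊L⌋₊ : ℝ) ^ 3 * ((⌊L⌋₊ : ℝ) / L) ^ 3)
      atTop (𝓝 (F A c μ * 1 ^ 3)) := (hF.comp hfl).mul (hratio.pow 3)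
  have hupp : Tendsto (fun L : ℝ => lg (Xi A c μ (⌊L⌋₊ + 1)) / ((⌊L⌋₊ + 1 : ℕ) : ℝ) ^ 3 *
      (((⌊L⌋₊ + 1 : ℕ) : ℝ) / L) ^ 3) atTop (𝓝 (F A c μ * 1 ^ 3)) := by
    refine Tendsto.mul ?_ (hratio1.pow 3)
    exact hF.comp ((tendsto_add_atTop_nat 1).comp hfl)
  rw [one_pow, mul_one] at hlow hupp
  refine tendsto_of_tendsto_of_tendsto_of_le_of_le' hlow hupp ?_ ?_
  · filter_upwards [eventually_ge_atTop 1] with L hL
    have hL0 : (0 : ℝ) < L := by linarith
    have hfp : (0 : ℝ) < ⌊L⌋₊ := by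
      exact_mod_cast Nat.floor_pos.2 hL
    have h1 : lg (Xi A c μ ⌊L⌋₊) ≤ lg (grandZ (phi A c) 1 z L) :=
      lg_mono (one_le_Xi h μ _) (grandZ_lower h hz hL0.le)
        (ne_top_of_le_ne_top (Xi_ne_top h μ _) (grandZ_upper h hz L))
    have h2 : lg (Xi A c μ ⌊L⌋₊) / (⌊L⌋₊ : ℝ) ^ 3 * ((⌊L⌋₊ : ℝ) / L) ^ 3 =
        lg (Xi A c μ ⌊L⌋₊) / L ^ 3 := by
      field_simp
    rw [h2]
    exact div_le_div_of_nonneg_right h1 (by positivity)
  · filter_upwards [eventually_ge_atTop 1] with L hL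
    have hL0 : (0 : ℝ) < L := by linarith
    have h1 : lg (grandZ (phi A c) 1 z L) ≤ lg (Xi A c μ (⌊L⌋₊ + 1)) :=
      lg_mono ((one_le_Xi h μ _).trans (grandZ_lower h hz hL0.le)) (grandZ_upper h hz L)
        (Xi_ne_top h μ _)
    have h2 : lg (Xi A c μ (⌊L⌋₊ + 1)) / ((⌊L⌋₊ + 1 : ℕ) : ℝ) ^ 3 *
        (((⌊L⌋₊ + 1 : ℕ) : ℝ) / L) ^ 3 = lg (Xi A c μ (⌊L⌋₊ + 1)) / L ^ 3 := by
      have : (0 : ℝ) < ((⌊L⌋₊ + 1 : ℕ) : ℝ) := by positivity
      field_simp
    rw [h2]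
    exact div_le_div_of_nonneg_right h1 (by positivity)

theorem phi_stable (h : Adm A c) : IsStable (phi A c) := by
  refine ⟨phi A c 0 / 2, fun N x _ => ?_⟩
  rw [energy_eq]
  have h1 := H_nonneg h (conf x)
  unfold H at h1
  linarith

theorem phi_tempered (h : Adm A c) : IsTempered (phi A c) := by
  refine ⟨1, 1, 3, one_pos, one_pos, by norm_num, fun r hr => ?_⟩
  have h1 := phi_le_of_far (A := A) h.1 (r := r) (by linarith)
  have h2 : (0 : ℝ) ≤ 1 * r ^ ((-3 : ℝ) - 1) := by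
    rw [one_mul]
    exact Real.rpow_nonneg (by linarith) _
  linarith

theorem phi_bdd (h : Adm A c) : LocallyBoundedPos (phi A c) := by
  intro a b _
  refine ⟨A + ∑' k, c k * (1 / vb), fun r _ _ => ?_⟩
  have hA := h.A_nonneg
  have hv := vb_pos
  have h1 := psi_nonneg h.1 r
  have h2 : psi c r ≤ ∑' k, c k * (1 / vb) :=
    (summable_kap h.2.1 r).tsum_le_tsum
      (fun k => mul_le_mul_of_nonneg_left (kap_le k r) (h.1 k)) (h.2.1.mul_right _)
  unfold phi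
  rw [abs_le]
  split_ifs <;> constructor <;> linarith

theorem main_result :
    ∃ φ : ℝ → ℝ, Measurable φ ∧ LocallyBoundedPos φ ∧ IsStable φ ∧ IsTempered φ ∧
      ∃ β : ℝ, 0 < β ∧ ∃ P : ℝ → ℝ, IsPressure φ β P ∧
        ∃ z : ℝ, 0 < z ∧ ¬ DifferentiableAt ℝ P z := by
  obtain ⟨c, μ, hadm, hnd⟩ := exists_c
  refine ⟨phi AA c, measurable_phi AA hadm.1 hadm.2.1, phi_bdd hadm, phi_stable hadm,
    phi_tempered hadm, 1, one_pos, _, isPressure hadm, Real.exp (μ - phi AA c 0 / 2),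
    Real.exp_pos _, ?_⟩
  intro hd
  apply hnd
  have h1 : (fun μ => F AA c μ) = (fun z => F AA c (Real.log z + phi AA c 0 / 2)) ∘
      (fun μ => Real.exp (μ - phi AA c 0 / 2)) := by
    ext ν
    simp only [Function.comp_apply, Real.log_exp, sub_add_cancel]
  rw [h1]
  refine DifferentiableAt.comp μ hd ?_
  fun_prop

end

end Vale.Agent.P171
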