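import Vale.Agent.P171.Config

open MeasureTheory Set Filter Topology
open scoped ENNReal

namespace Vale.Agent.P171

noncomputable section

/-- The half-open box with corner `a` and side `s`. -/
def box (a : Fin 3 → ℝ) (s : ℝ) : Set E := {x | ∀ i, a i ≤ x i ∧ x i < a i + s}

theorem measurable_coord (i : Fin 3) : Measurable (fun x : E => x i) := by
  exact (EuclideanSpace.proj (𝕜 := ℝ) i).continuous.measurable

theorem measurableSet_box (a : Fin 3 → ℝ) (s : ℝ) : MeasurableSet (box a s) := by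
  have : box a s = ⋂ i : Fin 3, ((fun x : E => x i) ⁻¹' Ico (a i) (a i + s)) := by
    ext x
    simp [box]
  rw [this]
  exact MeasurableSet.iInter fun i => (measurable_coord i) measurableSet_Ico

theorem volume_box (a : Fin 3 → ℝ) {s : ℝ} (hs : 0 ≤ s) :
    volume (box a s) = ENNReal.ofReal (s ^ 3) := by
  have h := PiLp.volume_preserving_ofLp (Fin 3)
  have h2 : box a s = (WithLp.ofLp) ⁻¹' (Set.pi univ fun i => Ico (a i) (a i + s)) := by
    ext x
    simp [box, Set.mem_pi]
  rw [h2, h.measure_preimage (MeasurableSet.univ_pi fun i => measurableSet_Ico).nullMeasurableSet,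
    Real.volume_pi_Ico]
  simp only [add_sub_cancel_left, Finset.prod_const, Finset.card_univ, Fintype.card_fin]
  rw [ENNReal.ofReal_pow hs]

/-- Volume of the unit ball. -/
def vb : ℝ := (volume (Metric.ball (0 : E) 1)).toReal

theorem vb_pos : 0 < vb := by
  unfold vb
  apply ENNReal.toReal_pos
  · exact (Metric.measure_ball_pos volume _ one_pos).ne'
  · exact measure_ball_lt_top.ne

theorem volume_ball_eq {r : ℝ} (hr : 0 ≤ r) :
    volume (Metric.ball (0 : E) r) = ENNReal.ofReal (vb * r ^ 3) := by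
  rw [Measure.addHaar_ball _ _ hr, finrank_euclideanSpace_fin, mul_comm vb, ENNReal.ofReal_mul
    (by positivity)]
  congr 1
  unfold vb
  rw [ENNReal.ofReal_toReal measure_ball_lt_top.ne]

theorem norm_le_two_mul {w : E} {t : ℝ} (ht : 0 ≤ t) (h : ∀ i, |w i| ≤ t) : ‖w‖ ≤ 2 * t := by
  rw [EuclideanSpace.norm_eq, Real.sqrt_le_left (by positivity)]
  have : ∀ i, ‖w i‖ ^ 2 ≤ t ^ 2 := by
    intro i
    rw [Real.norm_eq_abs]
    exact pow_le_pow_left₀ (abs_nonneg _) (h i) 2
  calc ∑ i, ‖w i‖ ^ 2 ≤ ∑ _i : Fin 3, t ^ 2 := Finset.sum_le_sum fun i _ => this i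
    _ = 3 * t ^ 2 := by simp
    _ ≤ (2 * t) ^ 2 := by nlinarith [sq_nonneg t]

theorem abs_coord_le (w : E) (i : Fin 3) : |w i| ≤ ‖w‖ := by
  have := PiLp.norm_apply_le w i
  simpa using this

/-- The vector with coordinates `l * D i`. -/
def vec (l : ℝ) (D : Fin 3 → ℤ) : E := WithLp.toLp 2 (fun i => l * (D i : ℝ))

@[simp] theorem vec_apply (l : ℝ) (D : Fin 3 → ℤ) (i : Fin 3) : vec l D i = l * (D i : ℝ) := rfl

theorem box_disj {l : ℝ} (hl : 0 < l) {D D' : Fin 3 → ℤ} (h : D ≠ D') :
    Disjoint (box (fun i => l * D i) l) (box (fun i => l * D' i) l) := by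
  rw [Set.disjoint_left]
  intro x hx hx'
  apply h
  ext i
  have h1 := hx i
  have h2 := hx' i
  have h3 : (D i : ℝ) < D' i + 1 := by
    have : l * (D i : ℝ) < l * (D' i + 1) := by linarith [h1.1, h2.2]
    exact lt_of_mul_lt_mul_left this hl.le
  have h4 : (D' i : ℝ) < D i + 1 := by
    have : l * (D' i : ℝ) < l * (D i + 1) := by linarith [h2.1, h1.2]
    exact lt_of_mul_lt_mul_left this hl.le
  have h5 : D i < D' i + 1 := by exact_mod_cast h3
  have h6 : D' i < D i + 1 := by exact_mod_cast h4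
  omega

theorem count_upper {l r : ℝ} (hl : 0 < l) (hr : 0 ≤ r) (T : Finset (Fin 3 → ℤ))
    (hT : ∀ D ∈ T, ‖vec l D‖ ≤ r) : l ^ 3 * T.card ≤ vb * (r + 3 * l) ^ 3 := by
  have h1 : volume (⋃ D ∈ T, box (fun i => l * D i) l) = ENNReal.ofReal (l ^ 3 * T.card) := by
    rw [measure_biUnion_finset]
    · simp_rw [volume_box _ hl.le]
      rw [Finset.sum_const, nsmul_eq_mul, mul_comm, ENNReal.ofReal_mul (by positivity),
        ENNReal.ofReal_natCast]
    · intro D _ D' _ h
      exact box_disj hl h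
    · intro D _
      exact measurableSet_box _ _
  have h2 : (⋃ D ∈ T, box (fun i => l * D i) l) ⊆ Metric.ball (0 : E) (r + 3 * l) := by
    intro x hx
    simp only [mem_iUnion] at hx
    obtain ⟨D, hD, hx⟩ := hx
    rw [mem_ball_zero_iff]
    have h3 : ‖x - vec l D‖ ≤ 2 * l := by
      apply norm_le_two_mul hl.le
      intro i
      have := hx i
      rw [PiLp.sub_apply, vec_apply, abs_le]
      constructor <;> linarith [this.1, this.2]
    calc ‖x‖ = ‖vec l D + (x - vec l D)‖ := by rw [add_sub_cancel]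
      _ ≤ ‖vec l D‖ + ‖x - vec l D‖ := norm_add_le _ _
      _ ≤ r + 2 * l := add_le_add (hT D hD) h3
      _ < r + 3 * l := by linarith
  have h3 := measure_mono (μ := volume) h2
  rw [h1, volume_ball_eq (by positivity), ENNReal.ofReal_le_ofReal_iff] at h3
  · exact h3
  · have := vb_pos
    positivity

theorem count_lower {l r : ℝ} (hl : 0 < l) (hr : 2 * l ≤ r) (T : Finset (Fin 3 → ℤ))
    (hT : ∀ D, ‖vec l D‖ ≤ r → D ∈ T) : vb * (r - 2 * l) ^ 3 ≤ l ^ 3 * T.card := by
  have h1 : volume (⋃ D ∈ T, box (fun i => l * D i) l) ≤ ENNReal.ofReal (l ^ 3 * T.card) := by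
    refine (measure_biUnion_finset_le _ _).trans ?_
    simp_rw [volume_box _ hl.le]
    rw [Finset.sum_const, nsmul_eq_mul, mul_comm, ENNReal.ofReal_mul (by positivity),
        ENNReal.ofReal_natCast]
  have h2 : Metric.ball (0 : E) (r - 2 * l) ⊆ (⋃ D ∈ T, box (fun i => l * D i) l) := by
    intro x hx
    rw [mem_ball_zero_iff] at hx
    simp only [mem_iUnion]
    have hxD : ∀ i, l * (⌊x i / l⌋ : ℝ) ≤ x i ∧ x i < l * (⌊x i / l⌋ : ℝ) + l := by
      intro i
      have h1 := Int.floor_le (x i / l)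
      have h2 := Int.lt_floor_add_one (x i / l)
      rw [le_div_iff₀ hl] at h1
      rw [div_lt_iff₀ hl] at h2
      constructor <;> nlinarith
    refine ⟨fun i => ⌊x i / l⌋, hT _ ?_, ?_⟩
    · have h3 : ‖vec l (fun i => ⌊x i / l⌋) - x‖ ≤ 2 * l := by
        apply norm_le_two_mul hl.le
        intro i
        have := hxD i
        rw [PiLp.sub_apply, vec_apply, abs_le]
        constructor <;> linarith [this.1, this.2]
      calc ‖vec l (fun i => ⌊x i / l⌋)‖ = ‖x + (vec l (fun i => ⌊x i / l⌋) - x)‖ := by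
            rw [add_sub_cancel]
        _ ≤ ‖x‖ + ‖vec l (fun i => ⌊x i / l⌋) - x‖ := norm_add_le _ _
        _ ≤ (r - 2 * l) + 2 * l := add_le_add hx.le h3
        _ = r := by ring
    · intro i
      exact hxD i
  have h3 := (measure_mono (μ := volume) h2).trans h1
  rw [volume_ball_eq (by linarith), ENNReal.ofReal_le_ofReal_iff (by positivity)] at h3
  exact h3

/-- A finite set of integer vectors containing all those of scaled norm at most `r`. -/
theorem exists_T {l : ℝ} (r : ℝ) (hl : 0 < l) :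
    ∃ T : Finset (Fin 3 → ℤ), ∀ D, D ∈ T ↔ ‖vec l D‖ ≤ r := by
  classical
  refine ⟨(Fintype.piFinset (fun _ => Finset.Icc (-⌈r / l⌉) (⌈r / l⌉))).filter
    (fun D => ‖vec l D‖ ≤ r), fun D => ?_⟩
  rw [Finset.mem_filter, Fintype.mem_piFinset]
  constructor
  · exact fun h => h.2
  · intro h
    refine ⟨fun i => ?_, h⟩
    have h1 := abs_coord_le (vec l D) i
    rw [vec_apply, abs_mul, abs_of_pos hl] at h1
    have h2 : |(D i : ℝ)| ≤ r / l := by
      rw [le_div_iff₀ hl]
      linarith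
    have h3 : |(D i : ℝ)| ≤ (⌈r / l⌉ : ℝ) := h2.trans (Int.le_ceil _)
    rw [abs_le] at h3
    rw [Finset.mem_Icc]
    constructor
    · exact_mod_cast h3.1
    · exact_mod_cast h3.2

end

end Vale.Agent.P171
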