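import Vale.Agent.P171.Crystal

open MeasureTheory Set Filter Topology
open scoped ENNReal

namespace Vale.Agent.P171

noncomputable section

variable {A : ℝ} {c : ℕ → ℝ}

/-- Increase of one coefficient. -/
def bump (c : ℕ → ℝ) (k : ℕ) (t : ℝ) : ℕ → ℝ := fun j => c j + if j = k then t else 0

theorem summable_bump (hc : Summable c) (k : ℕ) (t : ℝ) : Summable (bump c k t) := by
  refine hc.add ?_
  exact (hasSum_ite_eq k t).summable

theorem psi_bump (hc : Summable c) (k : ℕ) (t r : ℝ) :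
    psi (bump c k t) r = psi c r + t * kap k r := by
  unfold psi bump
  have h1 : ∀ j, (c j + if j = k then t else 0) * kap j r =
      c j * kap j r + (if j = k then t * kap k r else 0) := by
    intro j
    split_ifs with h
    · rw [h]
      ring
    · ring
  simp_rw [h1]
  rw [(summable_kap hc r).tsum_add (hasSum_ite_eq k _).summable, tsum_ite_eq]

theorem H_bump (hc : Summable c) (k : ℕ) (t : ℝ) (m : Multiset E) :
    H A (bump c k t) m = H A c m - t / 2 * S (fun x y => kap k (dist x y)) m := by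
  unfold H
  rw [S_phi, S_phi]
  have : S (fun x y => psi (bump c k t) (dist x y)) m =
      S (fun x y => psi c (dist x y)) m + t * S (fun x y => kap k (dist x y)) m := by
    rw [← S_const_mul, ← S_add]
    congr 1
    ext x y
    rw [psi_bump hc]
  rw [this]
  ring

/-- Boundary coefficient. -/
def al (c : ℕ → ℝ) (l : ℕ) : ℝ := ∑' k, c k * min 1 (3 * (Rk k + 1) / l)

theorem al_summable (hc0 : ∀ k, 0 ≤ c k) (hc : Summable c) (l : ℕ) :
    Summable fun k => c k * min 1 (3 * (Rk k + 1) / (l : ℝ)) := by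
  refine Summable.of_nonneg_of_le (fun k => ?_) (fun k => ?_) hc
  · have := Rk_pos k
    exact mul_nonneg (hc0 k) (le_min zero_le_one (by positivity))
  · exact mul_le_of_le_one_right (hc0 k) (min_le_left _ _)

theorem al_nonneg (hc0 : ∀ k, 0 ≤ c k) (l : ℕ) : 0 ≤ al c l :=
  tsum_nonneg fun k => by
    have := Rk_pos k
    exact mul_nonneg (hc0 k) (le_min zero_le_one (by positivity))

theorem al_tendsto (hc0 : ∀ k, 0 ≤ c k) (hc : Summable c) :
    Tendsto (fun l : ℕ => al c l) atTop (𝓝 0) := by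
  have h : Tendsto (fun l : ℕ => al c l) atTop (𝓝 (∑' _k : ℕ, (0 : ℝ))) := by
    refine tendsto_tsum_of_dominated_convergence (bound := c) hc (fun k => ?_) ?_
    · have h1 : Tendsto (fun l : ℕ => 3 * (Rk k + 1) / (l : ℝ)) atTop (𝓝 0) :=
        tendsto_const_div_atTop_nhds_zero_nat _
      have h2 : Tendsto (fun l : ℕ => min 1 (3 * (Rk k + 1) / (l : ℝ))) atTop (𝓝 (min 1 0)) :=
        tendsto_const_nhds.min h1
      have h3 := h2.const_mul (c k)
      simpa using h3
    · refine Eventually.of_forall fun l k => ?_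
      have := Rk_pos k
      have h1 : 0 ≤ min 1 (3 * (Rk k + 1) / (l : ℝ)) := le_min zero_le_one (by positivity)
      rw [Real.norm_eq_abs, abs_of_nonneg (mul_nonneg (hc0 k) h1)]
      exact mul_le_of_le_one_right (hc0 k) (min_le_left _ _)
  simpa using h

theorem exists_shift (hc0 : ∀ k, 0 ≤ c k) (hc : Summable c) {l : ℕ} (hl : 0 < l)
    (m : Multiset E) :
    ∃ s ∈ Finset.range l, S (fun x y => psi c (dist x y) * (1 - same (blk l s) x y)) m ≤
      2 * al c l * B m := by
  have hl' : (0 : ℝ) < l := by exact_mod_cast hl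
  have h1 : ∑ s ∈ Finset.range l, S (fun x y => psi c (dist x y) * (1 - same (blk l s) x y)) m ≤
      ∑ s ∈ Finset.range l, 2 * al c l * B m := by
    rw [← S_sum (Finset.range l) (fun s x y => psi c (dist x y) * (1 - same (blk l s) x y)),
      Finset.sum_const, Finset.card_range, nsmul_eq_mul]
    let c' : ℕ → ℝ := fun k => (l : ℝ) * (c k * min 1 (3 * (Rk k + 1) / (l : ℝ)))
    have hc' : Summable c' := (al_summable hc0 hc l).mul_left _
    have hc0' : ∀ k, 0 ≤ c' k := fun k => by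
      have := Rk_pos k
      exact mul_nonneg hl'.le (mul_nonneg (hc0 k) (le_min zero_le_one (by positivity)))
    have h2 : S (fun x y => ∑ s ∈ Finset.range l,
        psi c (dist x y) * (1 - same (blk l s) x y)) m ≤ S (fun x y => psi c' (dist x y)) m := by
      apply S_mono
      intro x y
      rw [← Finset.mul_sum]
      have h3 := count_shifts hl x y
      refine (mul_le_mul_of_nonneg_left h3 (psi_nonneg hc0 _)).trans ?_
      unfold psi
      rw [← tsum_mul_right]
      refine Summable.tsum_le_tsum (fun k => ?_) ((summable_kap hc _).mul_right _)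
        (summable_kap hc' _)
      have h4 : l * min 1 (3 * (Rk k + 1) / (l : ℝ)) = min (l : ℝ) (3 * (Rk k + 1)) := by
        rw [mul_min_of_nonneg _ _ hl'.le, mul_one, mul_div_cancel₀ _ hl'.ne']
      have h5 : c' k = c k * min (l : ℝ) (3 * (Rk k + 1)) := by
        simp only [c']
        rw [← h4]
        ring
      rw [h5, mul_assoc, mul_assoc]
      apply mul_le_mul_of_nonneg_left _ (hc0 k)
      unfold kap
      split_ifs with h6
      · have hv := vb_pos
        have hR := Rk_pos k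
        rw [mul_comm]
        apply mul_le_mul_of_nonneg_right _ (by positivity)
        apply min_le_min_left
        linarith
      · simp
    refine h2.trans ((S_psi_le hc0' hc' m).trans (le_of_eq ?_))
    simp only [c']
    rw [tsum_mul_left]
    unfold al
    ring
  exact Finset.exists_le_of_sum_le (Finset.nonempty_range_iff.2 hl.ne') h1

/-- The block weight exponent. -/
def gx (A : ℝ) (c : ℕ → ℝ) (μ a τ : ℝ) (m : Multiset E) : ℝ :=
  μ * m.card - H A c m + a * B m + τ * (m.card : ℝ) ^ 2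

theorem measurable_gx (h : Adm A c) (μ a τ : ℝ) : Measurable (gx A c μ a τ) :=
  (((measurable_cardR.const_mul μ).sub (measurable_H h)).add (measurable_B.const_mul a)).add
    ((measurable_cardR.pow_const 2).const_mul τ)

open Classical in
theorem decouple (h : Adm A c) (μ : ℝ) {l : ℕ} (hl : 0 < l) (k : ℕ) {t : ℝ} (ht : 0 ≤ t)
    (P : Finset (Fin 3 → ℤ)) (m : Multiset E)
    (hP : ∀ s ∈ Finset.range l, ∀ x ∈ m, blk l s x ∈ P) :
    W A (bump c k t) μ m ≤ ∑ s ∈ Finset.range l, ∏ p ∈ P,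
      ew (gx A c μ (al c l) (t / 2 * (1 + 5 * l / Rk k) ^ 3 / (l : ℝ) ^ 3)
        (m.filter (fun x => blk l s x = p))) := by
  obtain ⟨s, hs, hcross⟩ := exists_shift h.1 h.2.1 hl m
  refine le_trans ?_ (Finset.single_le_sum (f := fun s => ∏ p ∈ P,
      ew (gx A c μ (al c l) (t / 2 * (1 + 5 * l / Rk k) ^ 3 / (l : ℝ) ^ 3)
        (m.filter (fun x => blk l s x = p)))) (fun _ _ => zero_le) hs)
  rw [← ew_sum]
  apply ew_mono
  have hPs := hP s hs
  unfold gx
  rw [Finset.sum_add_distrib, Finset.sum_add_distrib, Finset.sum_sub_distrib, ← Finset.mul_sum,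
    ← Finset.mul_sum, ← Finset.mul_sum, ← card_split _ P m hPs, ← B_split l s P m hPs,
    ← same_split l s P m hPs]
  have h1 : ∑ p ∈ P, H A c (m.filter (fun x => blk l s x = p)) =
      S (fun x y => phi A c (dist x y) * same (blk l s) x y) m / 2 := by
    rw [S_split _ _ P m hPs, Finset.sum_div]
    rfl
  rw [h1, H_bump h.2.1]
  have h2 := S_kap_le k hl s m
  have h3 : S (fun x y => phi A c (dist x y) * same (blk l s) x y) m -
      S (fun x y => psi c (dist x y) * (1 - same (blk l s) x y)) m ≤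
      S (fun x y => phi A c (dist x y)) m := by
    rw [← S_sub]
    apply S_mono
    intro x y
    have hA := h.A_nonneg
    have hpsi := psi_nonneg h.1 (dist x y)
    unfold same phi
    split_ifs <;> linarith
  unfold H
  have h4 : t / 2 * S (fun x y => kap k (dist x y)) m ≤
      t / 2 * (1 + 5 * l / Rk k) ^ 3 / (l : ℝ) ^ 3 * S (same (blk l s)) m := by
    calc t / 2 * S (fun x y => kap k (dist x y)) m
        ≤ t / 2 * ((1 + 5 * l / Rk k) ^ 3 / (l : ℝ) ^ 3 * S (same (blk l s)) m) :=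
          mul_le_mul_of_nonneg_left h2 (by positivity)
      _ = t / 2 * (1 + 5 * l / Rk k) ^ 3 / (l : ℝ) ^ 3 * S (same (blk l s)) m := by ring
  linarith

theorem B_translate (a : Fin 3 → ℤ) (m : Multiset E) :
    B (m.map ((WithLp.toLp 2 (fun i => (a i : ℝ)) : E) + ·)) = B m := by
  unfold B
  rw [S_map]
  congr 1
  ext x y
  unfold same
  have h1 : ∀ z : E, blk 1 0 ((WithLp.toLp 2 (fun i => (a i : ℝ)) : E) + z) = a + blk 1 0 z := by
    intro z
    ext i
    rw [blk_one, Pi.add_apply, blk_one, PiLp.add_apply]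
    exact Int.floor_intCast_add _ _
  rw [h1, h1]
  simp

theorem gx_translate (μ a τ : ℝ) (b : Fin 3 → ℤ) (m : Multiset E) :
    gx A c μ a τ (m.map ((WithLp.toLp 2 (fun i => (b i : ℝ)) : E) + ·)) = gx A c μ a τ m := by
  unfold gx
  rw [H_translate, B_translate, Multiset.card_map]

/-- Block partition function. -/
def Xh (A : ℝ) (c : ℕ → ℝ) (μ a τ : ℝ) (l : ℕ) : ℝ≥0∞ :=
  ∫⁻ m in In (box (fun _ => 0) l), ew (gx A c μ a τ m) ∂Pm

theorem Xh_box (h : Adm A c) (μ a τ : ℝ) (l : ℕ) (b : Fin 3 → ℤ) :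
    ∫⁻ m in In (box (fun i => (b i : ℝ)) l), ew (gx A c μ a τ m) ∂Pm = Xh A c μ a τ l := by
  have hm : Measurable (fun m : Multiset E => ew (gx A c μ a τ m)) :=
    measurable_ew.comp (measurable_gx h μ a τ)
  rw [lintegral_box_translate _ _ hm]
  unfold Xh
  congr 1
  ext m
  rw [gx_translate]

theorem one_le_Xh (h : Adm A c) (μ a τ : ℝ) (l : ℕ) : 1 ≤ Xh A c μ a τ l := by
  have := le_lintegral_In (A := box (fun _ => 0) l) (measurable_ew.comp (measurable_gx h μ a τ))
  have h2 : ew (gx A c μ a τ 0) = 1 := by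
    unfold gx
    rw [H_zero, B_zero]
    simp [ew_zero]
  rw [Function.comp_apply, h2] at this
  exact this

theorem Xi_bump_le (h : Adm A c) (μ : ℝ) {l : ℕ} (hl : 0 < l) (k : ℕ) {t : ℝ}
    (ht : 0 ≤ t) (n : ℕ) :
    Xi A (bump c k t) μ n ≤ l *
      Xh A c μ (al c l) (t / 2 * (1 + 5 * l / Rk k) ^ 3 / (l : ℝ) ^ 3) l ^ ((n / l + 2) ^ 3) := by
  classical
  set a := al c l
  set τ := t / 2 * (1 + 5 * l / Rk k) ^ 3 / (l : ℝ) ^ 3
  let P : Finset (Fin 3 → ℤ) := Fintype.piFinset (fun _ => Finset.Icc (-1 : ℤ) (n / l : ℕ))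
  have hcardP : P.card = (n / l + 2) ^ 3 := by
    simp only [P, Fintype.card_piFinset, Int.card_Icc, Finset.prod_const, Finset.card_univ,
      Fintype.card_fin]
    congr 1
  have hl' : (0 : ℤ) < l := by exact_mod_cast hl
  have hblk : ∀ s ∈ Finset.range l, ∀ x ∈ box (fun _ => 0) (n : ℝ), blk l s x ∈ P := by
    intro s hs x hx
    rw [Fintype.mem_piFinset]
    intro i
    have h1 := hx i
    have h2 : (0 : ℤ) ≤ ⌊x i⌋ := Int.floor_nonneg.2 h1.1
    have h3 : ⌊x i⌋ < (n : ℤ) := by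
      rw [Int.floor_lt]
      have := h1.2
      push_cast
      linarith
    rw [Finset.mem_range] at hs
    rw [Finset.mem_Icc]
    unfold blk
    constructor
    · rw [Int.le_ediv_iff_mul_le hl']
      have : (s : ℤ) < l := by exact_mod_cast hs
      omega
    · have h4 : (⌊x i⌋ - (s : ℤ)) / (l : ℤ) ≤ (n : ℤ) / (l : ℤ) :=
        Int.ediv_le_ediv hl' (by omega)
      refine h4.trans (le_of_eq ?_)
      exact (Int.natCast_div n l).symm
  let Ap : ℕ → (Fin 3 → ℤ) → Set E := fun s p =>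
    box (fun i => (((l : ℤ) * p i + s : ℤ) : ℝ)) l
  have hAp : ∀ s p x, x ∈ Ap s p ↔ blk l s x = p := by
    intro s p x
    rw [blk_eq_iff hl]
    simp only [Ap]
    push_cast
    rfl
  have hAm : ∀ s, ∀ p ∈ P, MeasurableSet (Ap s p) := fun s p _ => measurableSet_box _ _
  have hdis : ∀ s, ∀ p ∈ P, ∀ q ∈ P, p ≠ q → Disjoint (Ap s p) (Ap s q) := by
    intro s p _ q _ hpq
    rw [Set.disjoint_left]
    intro x hx hy
    rw [hAp] at hx hy
    exact hpq (hx.symm.trans hy)
  have hgm := measurable_ew.comp (measurable_gx h μ a τ)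
  have hfac : ∀ s, ∫⁻ m in In (⋃ p ∈ P, Ap s p), ∏ p ∈ P,
      ew (gx A c μ a τ (m.filter (· ∈ Ap s p))) ∂Pm = Xh A c μ a τ l ^ ((n / l + 2) ^ 3) := by
    intro s
    have h1 := factor_family P (Ap s) (fun _ m => ew (gx A c μ a τ m)) (hAm s)
      (fun _ _ => hgm) (hdis s)
    rw [h1, ← hcardP, Finset.prod_congr rfl (fun p _ => Xh_box h μ a τ l _), Finset.prod_const]
  have hsub : ∀ s ∈ Finset.range l, box (fun _ => 0) (n : ℝ) ⊆ ⋃ p ∈ P, Ap s p := by
    intro s hs x hx
    simp only [mem_iUnion]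
    exact ⟨blk l s x, hblk s hs x hx, (hAp s _ x).2 rfl⟩
  have hfilm : ∀ s, Measurable (fun m : Multiset E => ∏ p ∈ P,
      ew (gx A c μ a τ (m.filter (· ∈ Ap s p)))) := fun s =>
    measurable_filter_prod P (Ap s) (fun _ m => ew (gx A c μ a τ m)) (hAm s) (fun _ _ => hgm)
  calc Xi A (bump c k t) μ n
      ≤ ∫⁻ m in In (box (fun _ => 0) n), ∑ s ∈ Finset.range l, ∏ p ∈ P,
        ew (gx A c μ a τ (m.filter (· ∈ Ap s p))) ∂Pm := by
        refine setLIntegral_mono' (measurableSet_In (measurableSet_box _ _)) fun m hm => ?_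
        have h1 := decouple h μ hl k ht P m (fun s hs x hx => hblk s hs x (hm x hx))
        refine h1.trans (le_of_eq ?_)
        refine Finset.sum_congr rfl fun s _ => Finset.prod_congr rfl fun p _ => ?_
        congr 2
        apply Multiset.filter_congr
        intro x _
        exact (hAp s p x).symm
    _ = ∑ s ∈ Finset.range l, ∫⁻ m in In (box (fun _ => 0) n), ∏ p ∈ P,
        ew (gx A c μ a τ (m.filter (· ∈ Ap s p))) ∂Pm :=
        lintegral_finsetSum _ fun s _ => hfilm s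
    _ ≤ ∑ s ∈ Finset.range l, Xh A c μ a τ l ^ ((n / l + 2) ^ 3) := by
        refine Finset.sum_le_sum fun s hs => ?_
        rw [← hfac s]
        exact lintegral_mono_set (In_mono (hsub s hs))
    _ = _ := by
        rw [Finset.sum_const, Finset.card_range, nsmul_eq_mul]

theorem F_bump_le (h : Adm A c) {k : ℕ} {t : ℝ} (hb : Adm A (bump c k t)) (μ : ℝ) {l : ℕ}
    (hl : 0 < l) (ht : 0 ≤ t)
    (hfin : Xh A c μ (al c l) (t / 2 * (1 + 5 * l / Rk k) ^ 3 / (l : ℝ) ^ 3) l ≠ ⊤) :
    F A (bump c k t) μ ≤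
      lg (Xh A c μ (al c l) (t / 2 * (1 + 5 * l / Rk k) ^ 3 / (l : ℝ) ^ 3) l) / (l : ℝ) ^ 3 := by
  set X := Xh A c μ (al c l) (t / 2 * (1 + 5 * l / Rk k) ^ 3 / (l : ℝ) ^ 3) l with hX
  have hX1 : 1 ≤ X := one_le_Xh h _ _ _ _
  have hX0 : X ≠ 0 := (lt_of_lt_of_le one_pos hX1).ne'
  have hl' : (0 : ℝ) < l := by exact_mod_cast hl
  have h1 := tendsto_F hb μ
  have h2 : Tendsto (fun n : ℕ => Real.log l * (((n : ℝ))⁻¹) ^ 3 +
      (((n / l : ℕ) : ℝ) / n + 2 * ((n : ℝ))⁻¹) ^ 3 * lg X) atTop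
      (𝓝 (Real.log l * 0 ^ 3 + (1 / (l : ℝ) + 2 * 0) ^ 3 * lg X)) := by
    have h3 : Tendsto (fun n : ℕ => ((n : ℝ))⁻¹) atTop (𝓝 0) := tendsto_inv_atTop_nhds_zero_nat
    exact ((h3.pow 3).const_mul _).add ((((tendsto_natdiv hl).add (h3.const_mul 2)).pow 3).mul_const _)
  have h3 := le_of_tendsto_of_tendsto h1 h2 (by
    filter_upwards [eventually_gt_atTop 0] with n hn
    have hn' : (0 : ℝ) < n := by exact_mod_cast hn
    rw [div_le_iff₀ (by positivity)]
    have h4 : lg (Xi A (bump c k t) μ n) ≤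
        Real.log l + (((n / l + 2) ^ 3 : ℕ) : ℝ) * lg X := by
      apply lg_le (one_le_Xi hb μ n)
      rw [ew_add, ← ew_pow, ew_lg hX0 hfin]
      have h5 : ew (Real.log l) = l := by
        unfold ew
        rw [Real.exp_log hl', ENNReal.ofReal_natCast]
      rw [h5]
      exact Xi_bump_le h μ hl k ht n
    refine h4.trans (le_of_eq ?_)
    push_cast
    field_simp)
  refine h3.trans (le_of_eq ?_)
  field_simp
  ring

/-- Partition function with a small extra attraction. -/
theorem interp (h : Adm A c) (μ : ℝ) {θ : ℝ} (hθ0 : 0 ≤ θ) (hθ1 : θ ≤ 1) (l : ℕ) :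
    ∫⁻ m in In (box (fun _ => 0) l), ew (μ * m.card - H A c m + θ * B m) ∂Pm ≤
      Xi A c μ l * ew (θ * (Real.exp μ * (l : ℝ) ^ 3)) := by
  have h1 : ∀ m : Multiset E, ew (μ * m.card - H A c m + θ * B m) =
      (W A c μ m) ^ (1 - θ) * (ew (μ * m.card - H A c m + B m)) ^ θ := by
    intro m
    unfold W
    rw [ew_rpow, ew_rpow, ← ew_add]
    congr 1
    ring
  simp_rw [h1]
  have hm2 : Measurable (fun m : Multiset E => ew (μ * m.card - H A c m + B m)) :=
    measurable_ew.comp (((measurable_cardR.const_mul μ).sub (measurable_H h)).add measurable_B)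
  refine (ENNReal.lintegral_mul_norm_pow_le (measurable_W h μ).aemeasurable
    hm2.aemeasurable (by linarith) hθ0 (by ring)).trans ?_
  refine mul_le_mul' ?_ ?_
  · have h2 : (Xi A c μ l) ^ (1 - θ) ≤ (Xi A c μ l) ^ (1 : ℝ) :=
      ENNReal.rpow_le_rpow_of_exponent_le (one_le_Xi h μ l) (by linarith)
    rw [ENNReal.rpow_one] at h2
    exact h2
  · rw [← ew_rpow]
    apply ENNReal.rpow_le_rpow _ hθ0
    apply lintegral_le_free
    intro m
    apply ew_mono
    have := B_le_H h.1 h.2.1 h.2.2 m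
    linarith

theorem card_sq_le {l : ℕ} {m : Multiset E} (hm : m ∈ In (box (fun _ => 0) l)) :
    (m.card : ℝ) ^ 2 ≤ (l : ℝ) ^ 3 * B m := by
  classical
  have hP : ∀ x ∈ m, blk 1 0 x ∈ Pn l := by
    intro x hx
    have h1 := hm x hx
    unfold Pn
    rw [Fintype.mem_piFinset]
    intro i
    rw [blk_one, Finset.mem_Ico]
    have h2 := h1 i
    constructor
    · exact Int.floor_nonneg.2 h2.1
    · rw [Int.floor_lt]
      have := h2.2
      push_cast
      linarith
  have h1 := card_split (blk 1 0) (Pn l) m hP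
  have h2 := same_split 1 0 (Pn l) m hP
  unfold B
  rw [h2, h1]
  have h3 := sq_sum_le_card_mul_sum_sq (s := Pn l)
    (f := fun p => ((m.filter (fun x => blk 1 0 x = p)).card : ℝ))
  rw [card_Pn] at h3
  push_cast at h3
  exact h3

theorem Xh_le (h : Adm A c) (μ : ℝ) {a w s r : ℝ} (ha : 0 ≤ a) (hw : 0 ≤ w) (haw : a + w ≤ 1)
    (hs : 0 ≤ s) {l : ℕ} (hl : 0 < l) :
    Xh A c μ a (w / (l : ℝ) ^ 3) l ≤
      Xi A c μ l * ew (a * (Real.exp μ * (l : ℝ) ^ 3)) * ew (w * r ^ 2 * (l : ℝ) ^ 3) +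
      Xi A c (μ + s) l * ew ((a + w) * (Real.exp (μ + s) * (l : ℝ) ^ 3)) *
        ew (-(s * r * (l : ℝ) ^ 3)) := by
  have hl' : (0 : ℝ) < l := by exact_mod_cast hl
  have h1 := interp h μ ha (by linarith) l
  have h2 := interp h (μ + s) (add_nonneg ha hw) haw l
  have hm1 : Measurable (fun m : Multiset E => ew (μ * m.card - H A c m + a * B m)) :=
    measurable_ew.comp (((measurable_cardR.const_mul μ).sub (measurable_H h)).add
      (measurable_B.const_mul a))
  have hm2 : Measurable (fun m : Multiset E =>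
      ew ((μ + s) * m.card - H A c m + (a + w) * B m)) :=
    measurable_ew.comp (((measurable_cardR.const_mul (μ + s)).sub (measurable_H h)).add
      (measurable_B.const_mul (a + w)))
  calc Xh A c μ a (w / (l : ℝ) ^ 3) l
      ≤ ∫⁻ m in In (box (fun _ => 0) l),
        (ew (μ * m.card - H A c m + a * B m) * ew (w * r ^ 2 * (l : ℝ) ^ 3) +
        ew ((μ + s) * m.card - H A c m + (a + w) * B m) * ew (-(s * r * (l : ℝ) ^ 3))) ∂Pm := by
        refine setLIntegral_mono' (measurableSet_In (measurableSet_box _ _)) fun m hm => ?_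
        unfold gx
        rcases le_total (m.card : ℝ) (r * (l : ℝ) ^ 3) with h3 | h3
        · refine le_trans ?_ (le_add_of_nonneg_right zero_le)
          rw [← ew_add]
          apply ew_mono
          have h4 : (m.card : ℝ) ^ 2 ≤ (r * (l : ℝ) ^ 3) ^ 2 :=
            pow_le_pow_left₀ (Nat.cast_nonneg _) h3 2
          have h5 : w / (l : ℝ) ^ 3 * (m.card : ℝ) ^ 2 ≤ w / (l : ℝ) ^ 3 * (r * (l : ℝ) ^ 3) ^ 2 :=
            mul_le_mul_of_nonneg_left h4 (by positivity)
          have h6 : w / (l : ℝ) ^ 3 * (r * (l : ℝ) ^ 3) ^ 2 = w * r ^ 2 * (l : ℝ) ^ 3 := by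
            field_simp
          linarith
        · refine le_trans ?_ (le_add_of_nonneg_left zero_le)
          rw [← ew_add]
          apply ew_mono
          have h4 := card_sq_le hm
          have h5 : w / (l : ℝ) ^ 3 * (m.card : ℝ) ^ 2 ≤ w * B m := by
            calc w / (l : ℝ) ^ 3 * (m.card : ℝ) ^ 2 ≤ w / (l : ℝ) ^ 3 * ((l : ℝ) ^ 3 * B m) :=
                  mul_le_mul_of_nonneg_left h4 (by positivity)
              _ = w * B m := by field_simp
          have h6 : s * (r * (l : ℝ) ^ 3) ≤ s * m.card := mul_le_mul_of_nonneg_left h3 hs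
          linarith
    _ = (∫⁻ m in In (box (fun _ => 0) l), ew (μ * m.card - H A c m + a * B m) ∂Pm) *
          ew (w * r ^ 2 * (l : ℝ) ^ 3) +
        (∫⁻ m in In (box (fun _ => 0) l), ew ((μ + s) * m.card - H A c m + (a + w) * B m) ∂Pm) *
          ew (-(s * r * (l : ℝ) ^ 3)) := by
        rw [lintegral_add_left (hm1.mul_const _), lintegral_mul_const _ hm1,
          lintegral_mul_const _ hm2]
    _ ≤ _ := by
        gcongr

theorem K2 (h : Adm A c) {k : ℕ} {t : ℝ} (hb : Adm A (bump c k t)) (μ : ℝ) {l : ℕ}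
    (hl : 0 < l) (ht : 0 ≤ t) {w s r : ℝ} (hs : 0 ≤ s)
    (hw : w = t / 2 * (1 + 5 * l / Rk k) ^ 3) (haw : al c l + w ≤ 1) :
    F A (bump c k t) μ ≤ Real.log 2 / (l : ℝ) ^ 3 + max
      ((1 + 3 / (l : ℝ)) ^ 3 * F A c μ + al c l * Real.exp μ + w * r ^ 2)
      ((1 + 3 / (l : ℝ)) ^ 3 * F A c (μ + s) + (al c l + w) * Real.exp (μ + s) - s * r) := by
  have hl' : (0 : ℝ) < l := by exact_mod_cast hl
  have hw0 : 0 ≤ w := by
    rw [hw]
    have := Rk_pos k
    positivity
  have ha0 := al_nonneg h.1 l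
  have h1 := Xh_le h μ (r := r) ha0 hw0 haw hs hl
  set X1 := (1 + 3 / (l : ℝ)) ^ 3 * F A c μ + al c l * Real.exp μ + w * r ^ 2 with hX1
  set X2 := (1 + 3 / (l : ℝ)) ^ 3 * F A c (μ + s) + (al c l + w) * Real.exp (μ + s) - s * r
    with hX2
  have h2 : Xi A c μ l ≤ ew (((l : ℝ) + 3) ^ 3 * F A c μ) :=
    (le_ew_lg (Xi_ne_top h μ l)).trans (ew_mono (le_F h μ l))
  have h3 : Xi A c (μ + s) l ≤ ew (((l : ℝ) + 3) ^ 3 * F A c (μ + s)) :=
    (le_ew_lg (Xi_ne_top h _ l)).trans (ew_mono (le_F h _ l))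
  have h4 : Xh A c μ (al c l) (w / (l : ℝ) ^ 3) l ≤
      ew (Real.log 2 + (l : ℝ) ^ 3 * max X1 X2) := by
    have h5 : Xi A c μ l * ew (al c l * (Real.exp μ * (l : ℝ) ^ 3)) *
        ew (w * r ^ 2 * (l : ℝ) ^ 3) ≤ ew ((l : ℝ) ^ 3 * max X1 X2) := by
      calc Xi A c μ l * ew (al c l * (Real.exp μ * (l : ℝ) ^ 3)) * ew (w * r ^ 2 * (l : ℝ) ^ 3)
          ≤ ew (((l : ℝ) + 3) ^ 3 * F A c μ) * ew (al c l * (Real.exp μ * (l : ℝ) ^ 3)) *
            ew (w * r ^ 2 * (l : ℝ) ^ 3) := by gcongr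
        _ = ew ((l : ℝ) ^ 3 * X1) := by
            rw [← ew_add, ← ew_add]
            congr 1
            rw [hX1]
            field_simp
        _ ≤ _ := ew_mono (mul_le_mul_of_nonneg_left (le_max_left _ _) (by positivity))
    have h6 : Xi A c (μ + s) l * ew ((al c l + w) * (Real.exp (μ + s) * (l : ℝ) ^ 3)) *
        ew (-(s * r * (l : ℝ) ^ 3)) ≤ ew ((l : ℝ) ^ 3 * max X1 X2) := by
      calc Xi A c (μ + s) l * ew ((al c l + w) * (Real.exp (μ + s) * (l : ℝ) ^ 3)) *
            ew (-(s * r * (l : ℝ) ^ 3))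
          ≤ ew (((l : ℝ) + 3) ^ 3 * F A c (μ + s)) *
            ew ((al c l + w) * (Real.exp (μ + s) * (l : ℝ) ^ 3)) *
            ew (-(s * r * (l : ℝ) ^ 3)) := by gcongr
        _ = ew ((l : ℝ) ^ 3 * X2) := by
            rw [← ew_add, ← ew_add]
            congr 1
            rw [hX2]
            field_simp
            ring
        _ ≤ _ := ew_mono (mul_le_mul_of_nonneg_left (le_max_right _ _) (by positivity))
    refine h1.trans ((add_le_add h5 h6).trans (le_of_eq ?_))
    rw [ew_add, ← two_mul]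
    congr 1
    unfold ew
    rw [Real.exp_log two_pos]
    simp
  have hτ : t / 2 * (1 + 5 * l / Rk k) ^ 3 / (l : ℝ) ^ 3 = w / (l : ℝ) ^ 3 := by rw [hw]
  have h7 := F_bump_le h hb μ hl ht (by
    rw [hτ]
    exact ne_top_of_le_ne_top (ew_ne_top _) h4)
  rw [hτ] at h7
  have h8 := lg_le (one_le_Xh h _ _ _ _) h4
  refine h7.trans ?_
  rw [div_le_iff₀ (by positivity)]
  refine h8.trans (le_of_eq ?_)
  field_simp

end

end Vale.Agent.P171
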