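import Vale.Agent.P171.Energy

open MeasureTheory Set Filter Topology
open scoped ENNReal

namespace Vale.Agent.P171

noncomputable section

/-- The range of the k-th kernel. -/
def Rk (k : ℕ) : ℝ := k + 200

theorem Rk_pos (k : ℕ) : 0 < Rk k := by
  unfold Rk
  positivity

theorem Rk_ge (k : ℕ) : 200 ≤ Rk k := by
  unfold Rk
  have : (0 : ℝ) ≤ k := Nat.cast_nonneg k
  linarith

/-- The k-th normalised kernel. -/
def kap (k : ℕ) (r : ℝ) : ℝ := if r ≤ Rk k then 1 / (vb * Rk k ^ 3) else 0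

/-- Total attraction. -/
def psi (c : ℕ → ℝ) (r : ℝ) : ℝ := ∑' k, c k * kap k r

/-- The potential. -/
def phi (A : ℝ) (c : ℕ → ℝ) (r : ℝ) : ℝ := (if r ≤ 2 then A else 0) - psi c r

/-- Energy including self-energies. -/
def H (A : ℝ) (c : ℕ → ℝ) (m : Multiset E) : ℝ := S (fun x y => phi A c (dist x y)) m / 2

theorem kap_nonneg (k : ℕ) (r : ℝ) : 0 ≤ kap k r := by
  unfold kap
  have := vb_pos
  have := Rk_pos k
  split_ifs <;> positivity

theorem kap_le (k : ℕ) (r : ℝ) : kap k r ≤ 1 / vb := by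
  unfold kap
  have h1 := vb_pos
  have h2 := Rk_ge k
  split_ifs
  · apply one_div_le_one_div_of_le h1
    have : (1 : ℝ) ≤ Rk k ^ 3 := one_le_pow₀ (by linarith)
    nlinarith
  · positivity

theorem kap_antitone (k : ℕ) : Antitone (kap k) := by
  intro r r' h
  unfold kap
  have h1 := vb_pos
  have h2 := Rk_pos k
  split_ifs with h3 h4 h5
  · exact le_rfl
  · exact absurd (h.trans h3) h4
  · positivity
  · exact le_rfl

theorem summable_kap {c : ℕ → ℝ} (hc : Summable c) (r : ℝ) : Summable fun k => c k * kap k r := by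
  have h1 : Summable fun k => |c k| * (1 / vb) := hc.abs.mul_right _
  refine Summable.of_norm_bounded h1 fun k => ?_
  rw [norm_mul, Real.norm_eq_abs, Real.norm_eq_abs, abs_of_nonneg (kap_nonneg k r)]
  exact mul_le_mul_of_nonneg_left (kap_le k r) (abs_nonneg _)

theorem psi_nonneg {c : ℕ → ℝ} (hc0 : ∀ k, 0 ≤ c k) (r : ℝ) : 0 ≤ psi c r :=
  tsum_nonneg fun k => mul_nonneg (hc0 k) (kap_nonneg k r)

theorem psi_antitone {c : ℕ → ℝ} (hc0 : ∀ k, 0 ≤ c k) (hc : Summable c) : Antitone (psi c) := by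
  intro r r' h
  exact (summable_kap hc r').tsum_le_tsum
    (fun k => mul_le_mul_of_nonneg_left (kap_antitone k h) (hc0 k)) (summable_kap hc r)

theorem measurable_phi (A : ℝ) {c : ℕ → ℝ} (hc0 : ∀ k, 0 ≤ c k) (hc : Summable c) :
    Measurable (phi A c) := by
  refine Measurable.sub ?_ (psi_antitone hc0 hc).measurable
  exact Measurable.ite measurableSet_Iic measurable_const measurable_const

theorem S_kap_le (k : ℕ) {l : ℕ} (hl : 0 < l) (s : ℕ) (m : Multiset E) :
    S (fun x y => kap k (dist x y)) m ≤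
      (1 + 5 * l / Rk k) ^ 3 / (l : ℝ) ^ 3 * S (same (blk l s)) m := by
  have hl' : (0 : ℝ) < l := by exact_mod_cast hl
  have h0 := S_ball_le hl s (Rk_pos k).le m
  have hv := vb_pos
  have hR := Rk_pos k
  have h1 : S (fun x y => kap k (dist x y)) m =
      (1 / (vb * Rk k ^ 3)) * S (fun x y => if dist x y ≤ Rk k then 1 else 0) m := by
    rw [← S_const_mul]
    congr 1
    ext x y
    unfold kap
    split_ifs <;> simp
  rw [h1]
  have h2 : S (fun x y => if dist x y ≤ Rk k then 1 else 0) m ≤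
      vb * (Rk k + 5 * l) ^ 3 / (l : ℝ) ^ 3 * S (same (blk l s)) m := by
    rw [div_mul_eq_mul_div, le_div_iff₀ (by positivity)]
    linarith
  calc (1 / (vb * Rk k ^ 3)) * S (fun x y => if dist x y ≤ Rk k then 1 else 0) m
      ≤ (1 / (vb * Rk k ^ 3)) * (vb * (Rk k + 5 * l) ^ 3 / (l : ℝ) ^ 3 * S (same (blk l s)) m) := by
        gcongr
    _ = (1 + 5 * l / Rk k) ^ 3 / (l : ℝ) ^ 3 * S (same (blk l s)) m := by
        field_simp

theorem S_same_nonneg (q : E → Fin 3 → ℤ) (m : Multiset E) : 0 ≤ S (same q) m :=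
  S_nonneg fun x y => by
    unfold same
    split_ifs <;> norm_num

theorem B_nonneg (m : Multiset E) : 0 ≤ B m := S_same_nonneg _ _

theorem S_kap_le_B (k : ℕ) (m : Multiset E) :
    S (fun x y => kap k (dist x y)) m ≤ 2 * B m := by
  have h := S_kap_le k one_pos 0 m
  refine h.trans ?_
  unfold B
  have h1 := S_same_nonneg (blk 1 0) m
  have h2 := Rk_ge k
  have h3 : 5 * ((1 : ℕ) : ℝ) / Rk k ≤ 1 / 40 := by
    rw [div_le_iff₀ (Rk_pos k)]
    push_cast
    linarith
  have h4 : 0 ≤ 5 * ((1 : ℕ) : ℝ) / Rk k := by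
    have := Rk_pos k
    positivity
  have h5 : (1 + 5 * ((1 : ℕ) : ℝ) / Rk k) ^ 3 / (((1 : ℕ) : ℝ)) ^ 3 ≤ 2 := by
    have : (1 + 5 * ((1 : ℕ) : ℝ) / Rk k) ^ 3 ≤ (1 + 1 / 40) ^ 3 := by gcongr
    push_cast at this ⊢
    norm_num at this ⊢
    linarith
  exact mul_le_mul_of_nonneg_right h5 h1

theorem S_kap_nonneg (k : ℕ) (m : Multiset E) : 0 ≤ S (fun x y => kap k (dist x y)) m :=
  S_nonneg fun _ _ => kap_nonneg _ _

theorem S_psi {c : ℕ → ℝ} (hc : Summable c) (m : Multiset E) :
    S (fun x y => psi c (dist x y)) m = ∑' k, c k * S (fun x y => kap k (dist x y)) m :=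
  S_tsum c (fun k x y => kap k (dist x y)) m fun x y => summable_kap hc _

theorem summable_S_kap {c : ℕ → ℝ} (hc : Summable c) (m : Multiset E) :
    Summable fun k => c k * S (fun x y => kap k (dist x y)) m :=
  summable_S c (fun k x y => kap k (dist x y)) m fun x y => summable_kap hc _

theorem S_psi_le {c : ℕ → ℝ} (hc0 : ∀ k, 0 ≤ c k) (hc : Summable c) (m : Multiset E) :
    S (fun x y => psi c (dist x y)) m ≤ 2 * (∑' k, c k) * B m := by
  rw [S_psi hc]
  have : 2 * (∑' k, c k) * B m = ∑' k, c k * (2 * B m) := by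
    rw [tsum_mul_right]
    ring
  rw [this]
  exact (summable_S_kap hc m).tsum_le_tsum
    (fun k => mul_le_mul_of_nonneg_left (S_kap_le_B k m) (hc0 k)) (hc.mul_right _)

theorem S_phi (A : ℝ) (c : ℕ → ℝ) (m : Multiset E) :
    S (fun x y => phi A c (dist x y)) m =
      A * S (fun x y => if dist x y ≤ 2 then 1 else 0) m - S (fun x y => psi c (dist x y)) m := by
  rw [← S_const_mul, ← S_sub]
  congr 1
  ext x y
  unfold phi
  split_ifs <;> simp

theorem blk_one (x : E) (i : Fin 3) : blk 1 0 x i = ⌊x i⌋ := by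
  unfold blk
  simp

theorem blk_of_cell {x y : E} (h : blk 1 0 x = blk 1 0 y) (l s : ℕ) : blk l s x = blk l s y := by
  ext i
  have := congrFun h i
  rw [blk_one, blk_one] at this
  unfold blk
  rw [this]

theorem dist_le_of_cell {x y : E} (h : blk 1 0 x = blk 1 0 y) : dist x y ≤ 2 := by
  rw [dist_eq_norm]
  have : ‖x - y‖ ≤ 2 * 1 := by
    apply norm_le_two_mul zero_le_one
    intro i
    have hx := blk_spec one_pos 0 x i
    have hy := blk_spec one_pos 0 y i
    rw [h] at hx
    push_cast at hx hy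
    rw [PiLp.sub_apply, abs_le]
    constructor <;> linarith [hx.1, hx.2, hy.1, hy.2]
  linarith

theorem B_le_S2 (m : Multiset E) : B m ≤ S (fun x y => if dist x y ≤ 2 then 1 else 0) m := by
  apply S_mono
  intro x y
  unfold same
  split_ifs with h1 h2 h3
  · exact le_rfl
  · exact absurd (dist_le_of_cell h1) h2
  · exact zero_le_one
  · exact le_rfl

theorem B_le_H {A : ℝ} {c : ℕ → ℝ} (hc0 : ∀ k, 0 ≤ c k) (hc : Summable c)
    (hA : 2 * (∑' k, c k) + 2 ≤ A) (m : Multiset E) : B m ≤ H A c m := by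
  unfold H
  rw [S_phi]
  have h1 := S_psi_le hc0 hc m
  have h2 := B_le_S2 m
  have h3 := B_nonneg m
  have h4 : 0 ≤ ∑' k, c k := tsum_nonneg hc0
  have h5 : A * B m ≤ A * S (fun x y => if dist x y ≤ 2 then 1 else 0) m :=
    mul_le_mul_of_nonneg_left h2 (by linarith)
  nlinarith

theorem sum_map_filter' {α : Type*} (m : Multiset α) (p : α → Prop) [DecidablePred p]
    (f : α → ℝ) : ((m.filter p).map f).sum = (m.map fun x => if p x then f x else 0).sum := by
  induction m using Multiset.induction_on with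
  | empty => simp
  | cons a m ih =>
    by_cases h : p a
    · simp [Multiset.filter_cons_of_pos _ h, h, ih]
    · simp [Multiset.filter_cons_of_neg _ h, h, ih]

theorem S_filter (K : E → E → ℝ) (m : Multiset E) (p : E → Prop) [DecidablePred p] :
    S K (m.filter p) = S (fun x y => if p x then (if p y then K x y else 0) else 0) m := by
  unfold S
  rw [sum_map_filter']
  congr 1
  apply Multiset.map_congr rfl
  intro x _
  rw [sum_map_filter']
  by_cases h : p x
  · simp only [h, if_true]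
  · simp only [h, if_false]
    simp

open Classical in
theorem S_split (K : E → E → ℝ) (q : E → Fin 3 → ℤ) (P : Finset (Fin 3 → ℤ)) (m : Multiset E)
    (hP : ∀ x ∈ m, q x ∈ P) :
    S (fun x y => K x y * same q x y) m = ∑ p ∈ P, S K (m.filter (fun x => q x = p)) := by
  simp_rw [S_filter]
  rw [← S_sum P (fun p x y => if q x = p then (if q y = p then K x y else 0) else 0)]
  apply S_congr_mem
  intro x hx y hy
  rw [Finset.sum_ite_eq, if_pos (hP x hx)]
  unfold same
  by_cases h : q x = q y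
  · simp [h]
  · have h' : ¬ q y = q x := fun h2 => h h2.symm
    simp [h, h']

theorem S_one (m : Multiset E) : S (fun _ _ => 1) m = (m.card : ℝ) ^ 2 := by
  unfold S
  simp [sq]

open Classical in
theorem card_split (q : E → Fin 3 → ℤ) (P : Finset (Fin 3 → ℤ)) (m : Multiset E)
    (hP : ∀ x ∈ m, q x ∈ P) :
    (m.card : ℝ) = ∑ p ∈ P, ((m.filter (fun x => q x = p)).card : ℝ) := by
  induction m using Multiset.induction_on with
  | empty => simp
  | cons a m ih =>
    have h1 : ∀ p ∈ P, (((a ::ₘ m).filter (fun x => q x = p)).card : ℝ) =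
        ((m.filter (fun x => q x = p)).card : ℝ) + if q a = p then 1 else 0 := by
      intro p _
      by_cases h : q a = p
      · rw [Multiset.filter_cons_of_pos (p := fun x => q x = p) _ h, Multiset.card_cons, if_pos h]
        push_cast
        rfl
      · rw [Multiset.filter_cons_of_neg (p := fun x => q x = p) _ h, if_neg h, add_zero]
    rw [Finset.sum_congr rfl h1, Finset.sum_add_distrib, Finset.sum_ite_eq,
      if_pos (hP a (Multiset.mem_cons_self a m)),
      ← ih (fun x hx => hP x (Multiset.mem_cons_of_mem hx)), Multiset.card_cons]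
    push_cast
    rfl

open Classical in
theorem B_split (l s : ℕ) (P : Finset (Fin 3 → ℤ)) (m : Multiset E)
    (hP : ∀ x ∈ m, blk l s x ∈ P) :
    B m = ∑ p ∈ P, B (m.filter (fun x => blk l s x = p)) := by
  have h := S_split (same (blk 1 0)) (blk l s) P m hP
  unfold B
  rw [← h]
  congr 1
  ext x y
  unfold same
  by_cases h1 : blk 1 0 x = blk 1 0 y
  · simp [h1, blk_of_cell h1 l s]
  · simp [h1]

open Classical in
theorem same_split (l s : ℕ) (P : Finset (Fin 3 → ℤ)) (m : Multiset E)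
    (hP : ∀ x ∈ m, blk l s x ∈ P) :
    S (same (blk l s)) m = ∑ p ∈ P, ((m.filter (fun x => blk l s x = p)).card : ℝ) ^ 2 := by
  have h := S_split (fun _ _ => 1) (blk l s) P m hP
  simp_rw [S_one] at h
  rw [← h]
  congr 1
  ext x y
  simp

theorem hermite_succ {l : ℕ} (hl : 0 < l) (a : ℤ) :
    ∑ s ∈ Finset.range l, (a + 1 - (s : ℤ)) / (l : ℤ) =
      ∑ s ∈ Finset.range l, (a - (s : ℤ)) / (l : ℤ) + 1 := by
  obtain ⟨L, rfl⟩ : ∃ L, l = L + 1 := ⟨l - 1, by omega⟩
  rw [Finset.sum_range_succ', Finset.sum_range_succ]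
  have h1 : ∀ s ∈ Finset.range L, (a + 1 - ((s + 1 : ℕ) : ℤ)) / ((L + 1 : ℕ) : ℤ) =
      (a - (s : ℤ)) / ((L + 1 : ℕ) : ℤ) := by
    intro s _
    congr 1
    push_cast
    ring
  rw [Finset.sum_congr rfl h1]
  have h2 : (a + 1 - ((0 : ℕ) : ℤ)) / ((L + 1 : ℕ) : ℤ) =
      (a - (L : ℤ)) / ((L + 1 : ℕ) : ℤ) + 1 := by
    have h3 : a + 1 - ((0 : ℕ) : ℤ) = (a - (L : ℤ)) + ((L + 1 : ℕ) : ℤ) := by
      push_cast
      ring
    rw [h3, Int.add_ediv_of_dvd_right (dvd_refl _), Int.ediv_self (by positivity)]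
  rw [h2]
  ring

theorem hermite_add {l : ℕ} (hl : 0 < l) (a : ℤ) (n : ℕ) :
    ∑ s ∈ Finset.range l, (a + n - (s : ℤ)) / (l : ℤ) =
      ∑ s ∈ Finset.range l, (a - (s : ℤ)) / (l : ℤ) + n := by
  induction n with
  | zero => simp
  | succ n ih =>
    have := hermite_succ hl (a + n)
    push_cast
    rw [← add_assoc, this, ih]
    ring

theorem count_one_dim {l : ℕ} (hl : 0 < l) (a b : ℤ) (hab : a ≤ b) :
    (((Finset.range l).filter (fun s : ℕ => (a - (s : ℤ)) / (l : ℤ) ≠ (b - (s : ℤ)) / (l : ℤ))).card :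
      ℤ) ≤ b - a := by
  obtain ⟨n, hn⟩ := Int.le.dest hab
  have h1 := hermite_add hl a n
  rw [hn] at h1
  have h2 : (((Finset.range l).filter
      (fun s : ℕ => (a - (s : ℤ)) / (l : ℤ) ≠ (b - (s : ℤ)) / (l : ℤ))).card : ℤ) ≤
      ∑ s ∈ Finset.range l, ((b - (s : ℤ)) / (l : ℤ) - (a - (s : ℤ)) / (l : ℤ)) := by
    rw [Finset.card_filter]
    push_cast
    apply Finset.sum_le_sum
    intro s _
    have h3 : (a - (s : ℤ)) / (l : ℤ) ≤ (b - (s : ℤ)) / (l : ℤ) :=
      Int.ediv_le_ediv (by exact_mod_cast hl) (by omega)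
    split_ifs with h4
    · omega
    · omega
  rw [Finset.sum_sub_distrib] at h2
  omega

theorem count_one_dim' {l : ℕ} (hl : 0 < l) (a b : ℤ) :
    (((Finset.range l).filter (fun s : ℕ => (a - (s : ℤ)) / (l : ℤ) ≠ (b - (s : ℤ)) / (l : ℤ))).card :
      ℤ) ≤ |a - b| := by
  rcases le_total a b with h | h
  · rw [abs_sub_comm, abs_of_nonneg (by omega)]
    exact count_one_dim hl a b h
  · rw [abs_of_nonneg (by omega)]
    have := count_one_dim hl b a h
    simp_rw [ne_comm (a := (b - _) / _)] at this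
    exact this

theorem floor_diff_le (x y : E) (i : Fin 3) : ((|⌊x i⌋ - ⌊y i⌋| : ℤ) : ℝ) ≤ dist x y + 1 := by
  have h1 : |x i - y i| ≤ dist x y := by
    rw [dist_eq_norm]
    exact abs_coord_le (x - y) i
  have h2 := Int.floor_le (x i)
  have h3 := Int.lt_floor_add_one (x i)
  have h4 := Int.floor_le (y i)
  have h5 := Int.lt_floor_add_one (y i)
  push_cast
  rw [abs_le] at h1 ⊢
  constructor <;> linarith [h1.1, h1.2]

theorem count_shifts {l : ℕ} (hl : 0 < l) (x y : E) :
    ∑ s ∈ Finset.range l, (1 - same (blk l s) x y) ≤ min (l : ℝ) (3 * (dist x y + 1)) := by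
  apply le_min
  · calc ∑ s ∈ Finset.range l, (1 - same (blk l s) x y) ≤ ∑ s ∈ Finset.range l, (1 : ℝ) := by
          apply Finset.sum_le_sum
          intro s _
          unfold same
          split_ifs <;> norm_num
      _ = l := by simp
  · have h1 : ∀ s ∈ Finset.range l, (1 - same (blk l s) x y) ≤
        ∑ i : Fin 3, (if (⌊x i⌋ - (s : ℤ)) / (l : ℤ) ≠ (⌊y i⌋ - (s : ℤ)) / (l : ℤ)
          then (1 : ℝ) else 0) := by
      intro s _
      unfold same
      split_ifs with h
      · rw [sub_self]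
        exact Finset.sum_nonneg fun i _ => by split_ifs <;> norm_num
      · have h2 : ∃ i, blk l s x i ≠ blk l s y i := by
          by_contra hc
          push Not at hc
          exact h (funext hc)
        obtain ⟨i, hi⟩ := h2
        rw [sub_zero]
        calc (1 : ℝ) = if (⌊x i⌋ - (s : ℤ)) / (l : ℤ) ≠ (⌊y i⌋ - (s : ℤ)) / (l : ℤ)
              then (1 : ℝ) else 0 := by
              rw [if_pos]
              exact hi
          _ ≤ _ := Finset.single_le_sum
              (f := fun i => if (⌊x i⌋ - (s : ℤ)) / (l : ℤ) ≠ (⌊y i⌋ - (s : ℤ)) / (l : ℤ)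
                then (1 : ℝ) else 0)
              (fun i _ => by split_ifs <;> norm_num) (Finset.mem_univ i)
    refine (Finset.sum_le_sum h1).trans ?_
    rw [Finset.sum_comm]
    have h2 : ∀ i ∈ (Finset.univ : Finset (Fin 3)),
        ∑ s ∈ Finset.range l, (if (⌊x i⌋ - (s : ℤ)) / (l : ℤ) ≠ (⌊y i⌋ - (s : ℤ)) / (l : ℤ)
          then (1 : ℝ) else 0) ≤ dist x y + 1 := by
      intro i _
      have h3 := count_one_dim' hl ⌊x i⌋ ⌊y i⌋
      have h4 : ((((Finset.range l).filter (fun s : ℕ => (⌊x i⌋ - (s : ℤ)) / (l : ℤ) ≠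
          (⌊y i⌋ - (s : ℤ)) / (l : ℤ))).card : ℤ) : ℝ) ≤ ((|⌊x i⌋ - ⌊y i⌋| : ℤ) : ℝ) := by
        exact_mod_cast h3
      refine le_trans (le_of_eq ?_) (h4.trans (floor_diff_le x y i))
      rw [Finset.card_filter]
      push_cast
      rfl
    refine (Finset.sum_le_sum h2).trans ?_
    simp
    linarith

end

end Vale.Agent.P171
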