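import Vale.Agent.P171.Potential

open MeasureTheory Set Filter Topology
open scoped ENNReal

namespace Vale.Agent.P171

noncomputable section

/-- Exponential as an extended nonnegative real. -/
def ew (u : ℝ) : ℝ≥0∞ := ENNReal.ofReal (Real.exp u)

/-- Real logarithm of an extended nonnegative real. -/
def lg (x : ℝ≥0∞) : ℝ := Real.log x.toReal

theorem ew_add (u v : ℝ) : ew (u + v) = ew u * ew v := by
  unfold ew
  rw [Real.exp_add, ENNReal.ofReal_mul (Real.exp_nonneg _)]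

theorem ew_zero : ew 0 = 1 := by
  unfold ew
  simp

theorem ew_mono {u v : ℝ} (h : u ≤ v) : ew u ≤ ew v :=
  ENNReal.ofReal_le_ofReal (Real.exp_le_exp.2 h)

theorem ew_le_iff {u v : ℝ} : ew u ≤ ew v ↔ u ≤ v := by
  unfold ew
  rw [ENNReal.ofReal_le_ofReal_iff (Real.exp_nonneg _), Real.exp_le_exp]

theorem ew_ne_top (u : ℝ) : ew u ≠ ⊤ := ENNReal.ofReal_ne_top

theorem ew_ne_zero (u : ℝ) : ew u ≠ 0 := by
  unfold ew
  simp [Real.exp_pos]

theorem ew_sum {ι : Type*} (P : Finset ι) (f : ι → ℝ) : ew (∑ p ∈ P, f p) = ∏ p ∈ P, ew (f p) := by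
  classical
  induction P using Finset.induction_on with
  | empty => simp [ew_zero]
  | insert a P ha ih => rw [Finset.sum_insert ha, Finset.prod_insert ha, ew_add, ih]

theorem ew_rpow (u t : ℝ) : ew u ^ t = ew (t * u) := by
  unfold ew
  rw [ENNReal.ofReal_rpow_of_pos (Real.exp_pos _), ← Real.exp_mul, mul_comm]

theorem ew_pow (u : ℝ) (n : ℕ) : ew u ^ n = ew (n * u) := by
  unfold ew
  rw [← ENNReal.ofReal_pow (Real.exp_nonneg _), ← Real.exp_nat_mul]

theorem lg_ew (u : ℝ) : lg (ew u) = u := by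
  unfold lg ew
  rw [ENNReal.toReal_ofReal (Real.exp_nonneg _), Real.log_exp]

theorem ew_lg {x : ℝ≥0∞} (h0 : x ≠ 0) (ht : x ≠ ⊤) : ew (lg x) = x := by
  unfold lg ew
  rw [Real.exp_log (ENNReal.toReal_pos h0 ht), ENNReal.ofReal_toReal ht]

theorem continuous_ew : Continuous ew :=
  ENNReal.continuous_ofReal.comp Real.continuous_exp

theorem measurable_ew : Measurable ew := continuous_ew.measurable

theorem lg_mono {x y : ℝ≥0∞} (hx : 1 ≤ x) (hxy : x ≤ y) (hy : y ≠ ⊤) : lg x ≤ lg y := by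
  have hx0 : x ≠ 0 := fun h => by simp [h] at hx
  have hxt : x ≠ ⊤ := ne_top_of_le_ne_top hy hxy
  have hy0 : y ≠ 0 := fun h => by simp [h] at hxy; exact hx0 hxy
  rw [← ew_le_iff, ew_lg hx0 hxt, ew_lg hy0 hy]
  exact hxy

theorem le_lg {x : ℝ≥0∞} {u : ℝ} (hx : ew u ≤ x) (hxt : x ≠ ⊤) : u ≤ lg x := by
  have hx0 : x ≠ 0 := fun h => by
    rw [h] at hx
    exact ew_ne_zero u (le_antisymm hx zero_le)
  rw [← ew_le_iff, ew_lg hx0 hxt]
  exact hx

theorem lg_le {x : ℝ≥0∞} {u : ℝ} (hx1 : 1 ≤ x) (hx : x ≤ ew u) : lg x ≤ u := by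
  have hx0 : x ≠ 0 := fun h => by simp [h] at hx1
  have hxt : x ≠ ⊤ := ne_top_of_le_ne_top (ew_ne_top u) hx
  rw [← ew_le_iff, ew_lg hx0 hxt]
  exact hx

theorem le_ew_lg {x : ℝ≥0∞} (hxt : x ≠ ⊤) : x ≤ ew (lg x) := by
  by_cases hx0 : x = 0
  · rw [hx0]
    exact zero_le
  · rw [ew_lg hx0 hxt]

/-- Admissible parameters. -/
def Adm (A : ℝ) (c : ℕ → ℝ) : Prop := (∀ k, 0 ≤ c k) ∧ Summable c ∧ 2 * (∑' k, c k) + 2 ≤ A

/-- Statistical weight. -/
def W (A : ℝ) (c : ℕ → ℝ) (μ : ℝ) (m : Multiset E) : ℝ≥0∞ := ew (μ * m.card - H A c m)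

/-- Grand partition function of the cube of side `n`. -/
def Xi (A : ℝ) (c : ℕ → ℝ) (μ : ℝ) (n : ℕ) : ℝ≥0∞ :=
  ∫⁻ m in In (box (fun _ => 0) n), W A c μ m ∂Pm

variable {A : ℝ} {c : ℕ → ℝ}

theorem Adm.A_nonneg (h : Adm A c) : 0 ≤ A := by
  have : 0 ≤ ∑' k, c k := tsum_nonneg h.1
  linarith [h.2.2]

theorem measurable_H (h : Adm A c) : Measurable (H A c) := by
  refine Measurable.div_const ?_ 2
  apply measurable_S
  exact (measurable_phi A h.1 h.2.1).comp measurable_dist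

theorem measurable_B : Measurable B := by
  apply measurable_S
  have hb : Measurable (blk 1 0) := by
    rw [measurable_pi_iff]
    intro i
    simp only [blk_one]
    exact Int.measurable_floor.comp (measurable_coord i)
  exact Measurable.ite (measurableSet_eq_fun (hb.comp measurable_fst) (hb.comp measurable_snd))
    measurable_const measurable_const

theorem measurable_cardR : Measurable (fun m : Multiset E => (m.card : ℝ)) :=
  (measurable_from_top (f := fun n : ℕ => (n : ℝ))).comp measurable_card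

theorem measurable_W (h : Adm A c) (μ : ℝ) : Measurable (W A c μ) :=
  measurable_ew.comp ((measurable_cardR.const_mul μ).sub (measurable_H h))

theorem S_zero_conf (K : E → E → ℝ) : S K 0 = 0 := by
  unfold S
  simp

theorem H_zero : H A c 0 = 0 := by
  unfold H
  rw [S_zero_conf]
  simp

theorem B_zero : B 0 = 0 := S_zero_conf _

theorem H_nonneg (h : Adm A c) (m : Multiset E) : 0 ≤ H A c m :=
  (B_nonneg m).trans (B_le_H h.1 h.2.1 h.2.2 m)

theorem W_zero (μ : ℝ) : W A c μ 0 = 1 := by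
  unfold W
  rw [H_zero]
  simp [ew_zero]

theorem one_le_Xi (h : Adm A c) (μ : ℝ) (n : ℕ) : 1 ≤ Xi A c μ n := by
  have := le_lintegral_In (A := box (fun _ => 0) n) (measurable_W h μ)
  rwa [W_zero] at this

theorem lintegral_card_box (μ : ℝ) (n : ℕ) :
    ∫⁻ m in In (box (fun _ => 0) n), ew (μ * m.card) ∂Pm = ew (Real.exp μ * (n : ℝ) ^ 3) := by
  have h := lintegral_pow (measurableSet_box (fun _ => 0) (n : ℝ)) (Real.exp μ)
    (Real.exp_nonneg _) ((n : ℝ) ^ 3) (by positivity) (volume_box _ (Nat.cast_nonneg n))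
  unfold ew
  rw [← h]
  congr 1
  ext m
  rw [← Real.exp_nat_mul, mul_comm]

/-- A weight dominated by the free one has controlled integral. -/
theorem lintegral_le_free {μ : ℝ} {n : ℕ} {f : Multiset E → ℝ≥0∞}
    (hf : ∀ m, f m ≤ ew (μ * m.card)) :
    ∫⁻ m in In (box (fun _ => 0) n), f m ∂Pm ≤ ew (Real.exp μ * (n : ℝ) ^ 3) := by
  rw [← lintegral_card_box]
  exact lintegral_mono hf

theorem Xi_le (h : Adm A c) (μ : ℝ) (n : ℕ) : Xi A c μ n ≤ ew (Real.exp μ * (n : ℝ) ^ 3) := by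
  apply lintegral_le_free
  intro m
  exact ew_mono (by linarith [H_nonneg h m])

theorem Xi_ne_top (h : Adm A c) (μ : ℝ) (n : ℕ) : Xi A c μ n ≠ ⊤ :=
  ne_top_of_le_ne_top (ew_ne_top _) (Xi_le h μ n)

theorem box_mono {m n : ℝ} (h : m ≤ n) (a : Fin 3 → ℝ) : box a m ⊆ box a n := by
  intro x hx i
  exact ⟨(hx i).1, (hx i).2.trans_le (by linarith)⟩

theorem Xi_mono {μ : ℝ} {m n : ℕ} (hmn : m ≤ n) : Xi A c μ m ≤ Xi A c μ n :=
  lintegral_mono_set (In_mono (box_mono (by exact_mod_cast hmn) _))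

theorem H_translate (a : E) (m : Multiset E) : H A c (m.map (a + ·)) = H A c m := by
  unfold H
  rw [S_map]
  simp only [dist_add_left]

theorem lintegral_box_translate (a : Fin 3 → ℝ) (n : ℝ) {f : Multiset E → ℝ≥0∞}
    (hf : Measurable f) :
    ∫⁻ m in In (box a n), f m ∂Pm =
    ∫⁻ m in In (box (fun _ => 0) n), f (m.map ((WithLp.toLp 2 a : E) + ·)) ∂Pm := by
  apply lintegral_translate _ (measurableSet_box _ _) (measurableSet_box _ _) _ hf
  intro x
  unfold box
  constructor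
  · intro h i
    have := h i
    simp only [PiLp.add_apply] at this
    constructor <;> linarith [this.1, this.2]
  · intro h i
    have := h i
    simp only [PiLp.add_apply]
    constructor <;> linarith [this.1, this.2]

theorem Xi_box (h : Adm A c) (μ : ℝ) (a : Fin 3 → ℝ) (n : ℕ) :
    ∫⁻ m in In (box a n), W A c μ m ∂Pm = Xi A c μ n := by
  rw [lintegral_box_translate a n (measurable_W h μ)]
  unfold Xi W
  simp only [H_translate, Multiset.card_map]

theorem blk_of_mem_corridor {l : ℕ} {p : Fin 3 → ℤ} {x : E}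
    (hx : x ∈ box (fun i => ((l + 3 : ℕ) : ℝ) * p i) l) : blk (l + 3) 0 x = p := by
  rw [blk_eq_iff (by omega)]
  intro i
  have := hx i
  push_cast at this ⊢
  constructor <;> linarith [this.1, this.2]

theorem dist_corridor {l : ℕ} {p q : Fin 3 → ℤ} {x y : E} (hpq : p ≠ q)
    (hx : x ∈ box (fun i => ((l + 3 : ℕ) : ℝ) * p i) l)
    (hy : y ∈ box (fun i => ((l + 3 : ℕ) : ℝ) * q i) l) : 2 < dist x y := by
  obtain ⟨i, hi⟩ : ∃ i, p i ≠ q i := by
    by_contra hc
    push Not at hc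
    exact hpq (funext hc)
  have h1 : |x i - y i| ≤ dist x y := by
    rw [dist_eq_norm]
    exact abs_coord_le (x - y) i
  have hxi := hx i
  have hyi := hy i
  push_cast at hxi hyi
  have hl : (0 : ℝ) ≤ l := Nat.cast_nonneg l
  rcases lt_or_gt_of_ne hi with h | h
  · have h2 : (p i : ℝ) + 1 ≤ q i := by exact_mod_cast h
    have h3 : ((l : ℝ) + 3) * (p i + 1) ≤ (l + 3) * q i :=
      mul_le_mul_of_nonneg_left h2 (by positivity)
    rw [abs_le] at h1
    nlinarith [hxi.1, hxi.2, hyi.1, hyi.2, h1.1, h1.2]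
  · have h2 : (q i : ℝ) + 1 ≤ p i := by exact_mod_cast h
    have h3 : ((l : ℝ) + 3) * (q i + 1) ≤ (l + 3) * p i :=
      mul_le_mul_of_nonneg_left h2 (by positivity)
    rw [abs_le] at h1
    nlinarith [hxi.1, hxi.2, hyi.1, hyi.2, h1.1, h1.2]

theorem phi_le_of_far (hc0 : ∀ k, 0 ≤ c k) {r : ℝ} (hr : 2 < r) : phi A c r ≤ 0 := by
  unfold phi
  rw [if_neg (by linarith)]
  linarith [psi_nonneg hc0 r]

theorem superadd (h : Adm A c) (μ : ℝ) {l k n : ℕ} (hn : (l + 3) * k ≤ n) :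
    Xi A c μ l ^ (k ^ 3) ≤ Xi A c μ n := by
  classical
  let P : Finset (Fin 3 → ℤ) := Fintype.piFinset (fun _ => Finset.Ico (0 : ℤ) k)
  let Ap : (Fin 3 → ℤ) → Set E := fun p => box (fun i => ((l + 3 : ℕ) : ℝ) * p i) l
  have hAm : ∀ p ∈ P, MeasurableSet (Ap p) := fun p _ => measurableSet_box _ _
  have hcardP : P.card = k ^ 3 := by
    simp [P]
  have hdis : ∀ p ∈ P, ∀ q ∈ P, p ≠ q → Disjoint (Ap p) (Ap q) := by
    intro p _ q _ hpq
    rw [Set.disjoint_left]
    intro x hx hy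
    exact hpq ((blk_of_mem_corridor hx).symm.trans (blk_of_mem_corridor hy))
  have hfac := factor_family P Ap (fun _ => W A c μ) hAm (fun _ _ => measurable_W h μ) hdis
  have h1 : ∏ p ∈ P, ∫⁻ m in In (Ap p), W A c μ m ∂Pm = Xi A c μ l ^ (k ^ 3) := by
    rw [← hcardP, Finset.prod_congr rfl (fun p _ => Xi_box h μ _ l), Finset.prod_const]
  rw [← h1, ← hfac]
  have hsub : (⋃ p ∈ P, Ap p) ⊆ box (fun _ => 0) n := by
    intro x hx
    simp only [mem_iUnion] at hx
    obtain ⟨p, hp, hx⟩ := hx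
    intro i
    have h2 := hx i
    have h3 : p i ∈ Finset.Ico (0 : ℤ) k := Fintype.mem_piFinset.1 hp i
    rw [Finset.mem_Ico] at h3
    have h4 : (0 : ℝ) ≤ p i := by exact_mod_cast h3.1
    have h5 : (p i : ℝ) + 1 ≤ k := by exact_mod_cast h3.2
    have h6 : ((l : ℝ) + 3) * k ≤ n := by exact_mod_cast hn
    have h7 : (0 : ℝ) ≤ l := Nat.cast_nonneg l
    push_cast at h2 ⊢
    have h8 : ((l : ℝ) + 3) * (p i + 1) ≤ (l + 3) * k :=
      mul_le_mul_of_nonneg_left h5 (by positivity)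
    have h9 : 0 ≤ ((l : ℝ) + 3) * p i := by positivity
    constructor <;> nlinarith [h2.1, h2.2]
  have hUm : MeasurableSet (⋃ p ∈ P, Ap p) := Finset.measurableSet_biUnion _ hAm
  calc ∫⁻ m in In (⋃ p ∈ P, Ap p), ∏ p ∈ P, W A c μ (m.filter (· ∈ Ap p)) ∂Pm
      ≤ ∫⁻ m in In (⋃ p ∈ P, Ap p), W A c μ m ∂Pm := by
        refine setLIntegral_mono' (measurableSet_In hUm) fun m hm => ?_
        have hcls : ∀ x ∈ m, ∃ p ∈ P, x ∈ Ap p := by
          intro x hx
          have := hm x hx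
          simpa only [mem_iUnion, exists_prop] using this
        have hP : ∀ x ∈ m, blk (l + 3) 0 x ∈ P := by
          intro x hx
          obtain ⟨p, hp, hxp⟩ := hcls x hx
          rw [blk_of_mem_corridor hxp]
          exact hp
        have hfil : ∀ p ∈ P, m.filter (· ∈ Ap p) = m.filter (fun x => blk (l + 3) 0 x = p) := by
          intro p _
          apply Multiset.filter_congr
          intro x hx
          constructor
          · intro h'
            exact blk_of_mem_corridor h'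
          · intro h'
            obtain ⟨q, hq, hxq⟩ := hcls x hx
            rw [← h', blk_of_mem_corridor hxq]
            exact hxq
        have hW : ∏ p ∈ P, W A c μ (m.filter (· ∈ Ap p)) =
            ew (μ * m.card - (∑ p ∈ P, S (fun x y => phi A c (dist x y))
              (m.filter (fun x => blk (l + 3) 0 x = p))) / 2) := by
          rw [card_split (blk (l + 3) 0) P m hP, Finset.mul_sum, Finset.sum_div,
            ← Finset.sum_sub_distrib, ew_sum]
          refine Finset.prod_congr rfl fun p hp => ?_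
          rw [hfil p hp]
          rfl
        rw [hW, ← S_split _ _ P m hP]
        apply ew_mono
        unfold H
        have : S (fun x y => phi A c (dist x y)) m ≤
            S (fun x y => phi A c (dist x y) * same (blk (l + 3) 0) x y) m := by
          apply S_mono_mem
          intro x hx y hy
          unfold same
          split_ifs with hxy
          · rw [mul_one]
          · obtain ⟨p, hp, hxp⟩ := hcls x hx
            obtain ⟨q, hq, hyq⟩ := hcls y hy
            rw [blk_of_mem_corridor hxp, blk_of_mem_corridor hyq] at hxy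
            rw [mul_zero]
            exact phi_le_of_far h.1 (dist_corridor hxy hxp hyq)
        linarith
    _ ≤ Xi A c μ n := lintegral_mono_set (In_mono hsub)

/-- The pressure. -/
def F (A : ℝ) (c : ℕ → ℝ) (μ : ℝ) : ℝ := ⨆ l : ℕ, lg (Xi A c μ l) / ((l : ℝ) + 3) ^ 3

theorem lg_Xi_nonneg (h : Adm A c) (μ : ℝ) (n : ℕ) : 0 ≤ lg (Xi A c μ n) := by
  apply le_lg _ (Xi_ne_top h μ n)
  rw [ew_zero]
  exact one_le_Xi h μ n

theorem lg_Xi_le (h : Adm A c) (μ : ℝ) (n : ℕ) : lg (Xi A c μ n) ≤ Real.exp μ * (n : ℝ) ^ 3 :=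
  lg_le (one_le_Xi h μ n) (Xi_le h μ n)

theorem F_bdd (h : Adm A c) (μ : ℝ) :
    BddAbove (range fun l : ℕ => lg (Xi A c μ l) / ((l : ℝ) + 3) ^ 3) := by
  refine ⟨Real.exp μ, ?_⟩
  rintro _ ⟨l, rfl⟩
  simp only
  rw [div_le_iff₀ (by positivity)]
  refine (lg_Xi_le h μ l).trans ?_
  gcongr
  linarith

theorem le_F (h : Adm A c) (μ : ℝ) (l : ℕ) : lg (Xi A c μ l) ≤ ((l : ℝ) + 3) ^ 3 * F A c μ := by
  have h1 : lg (Xi A c μ l) / ((l : ℝ) + 3) ^ 3 ≤ F A c μ := le_ciSup (F_bdd h μ) l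
  rw [div_le_iff₀ (by positivity)] at h1
  linarith

theorem F_nonneg (h : Adm A c) (μ : ℝ) : 0 ≤ F A c μ := by
  have h1 := le_F h μ 0
  have h2 := lg_Xi_nonneg h μ 0
  have h3 : (0 : ℝ) < (((0 : ℕ) : ℝ) + 3) ^ 3 := by positivity
  exact nonneg_of_mul_nonneg_right (h2.trans h1) h3

theorem F_le_exp (h : Adm A c) (μ : ℝ) : F A c μ ≤ Real.exp μ := by
  apply ciSup_le
  intro l
  rw [div_le_iff₀ (by positivity)]
  refine (lg_Xi_le h μ l).trans ?_
  gcongr
  linarith

theorem tendsto_natdiv {q : ℕ} (hq : 0 < q) :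
    Tendsto (fun n : ℕ => ((n / q : ℕ) : ℝ) / n) atTop (𝓝 (1 / q)) := by
  have h := (tendsto_nat_floor_mul_div_atTop (R := ℝ) (a := 1 / q) (by positivity)).comp
    tendsto_natCast_atTop_atTop
  refine h.congr fun n => ?_
  simp only [Function.comp_apply]
  rw [one_div, inv_mul_eq_div, Nat.floor_div_eq_div]

theorem tendsto_F (h : Adm A c) (μ : ℝ) :
    Tendsto (fun n : ℕ => lg (Xi A c μ n) / (n : ℝ) ^ 3) atTop (𝓝 (F A c μ)) := by
  rw [tendsto_order]
  constructor
  · intro a ha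
    obtain ⟨l, hl⟩ := exists_lt_of_lt_ciSup ha
    have h1 : Tendsto (fun n : ℕ => (((n / (l + 3) : ℕ) : ℝ) / n) ^ 3 * lg (Xi A c μ l)) atTop
        (𝓝 ((1 / ((l + 3 : ℕ) : ℝ)) ^ 3 * lg (Xi A c μ l))) :=
      ((tendsto_natdiv (by omega : 0 < l + 3)).pow 3).mul_const _
    have h2 : a < (1 / ((l + 3 : ℕ) : ℝ)) ^ 3 * lg (Xi A c μ l) := by
      refine hl.trans_eq ?_
      push_cast
      field_simp
    filter_upwards [h1.eventually (lt_mem_nhds h2), eventually_gt_atTop 0] with n hn hn0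
    refine hn.trans_le ?_
    have h3 := superadd h μ (l := l) (k := n / (l + 3)) (n := n) (Nat.mul_div_le n (l + 3))
    have h4 : (((n / (l + 3)) ^ 3 : ℕ) : ℝ) * lg (Xi A c μ l) ≤ lg (Xi A c μ n) := by
      apply le_lg _ (Xi_ne_top h μ n)
      rw [← ew_pow, ew_lg _ (Xi_ne_top h μ l)]
      · exact h3
      · exact (lt_of_lt_of_le one_pos (one_le_Xi h μ l)).ne'
    have hn' : (0 : ℝ) < n := by exact_mod_cast hn0
    rw [div_pow, div_mul_eq_mul_div]
    push_cast at h4
    exact div_le_div_of_nonneg_right h4 (by positivity)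
  · intro a ha
    have h1 : Tendsto (fun n : ℕ => (1 + 3 * ((n : ℝ))⁻¹) ^ 3 * F A c μ) atTop
        (𝓝 ((1 + 3 * 0) ^ 3 * F A c μ)) := by
      refine Tendsto.mul_const _ (Tendsto.pow (Tendsto.const_add _ (Tendsto.const_mul _ ?_)) 3)
      exact tendsto_inv_atTop_nhds_zero_nat
    have h2 : (1 + 3 * 0) ^ 3 * F A c μ < a := by
      simpa using ha
    filter_upwards [h1.eventually (gt_mem_nhds h2), eventually_gt_atTop 0] with n hn hn0
    refine lt_of_le_of_lt ?_ hn
    have hn' : (0 : ℝ) < n := by exact_mod_cast hn0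
    rw [div_le_iff₀ (by positivity)]
    refine (le_F h μ n).trans (le_of_eq ?_)
    field_simp

end

end Vale.Agent.P171
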